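import Crest.Agent.R140.Kappa

/-! Row 140 (S0191): the ping-pong arc patterns and the nesting invariant along non-backtracking
paths. -/

set_option autoImplicit false

namespace Crest.Agent.R140

/-- Offset of an endpoint inside a period. -/
def off {d : ℕ} (i l : Fin d) (b : Bool) : ℤ :=
  if l = i then (if b then 2 * d else 0)
  else if l < i then 2 * ((l : ℕ) - (i : ℕ) : ℤ) - 2 + (if b then 1 else 0)
  else 2 * ((l : ℕ) - (i : ℕ) : ℤ) + 2 * d + (if b then 1 else 0)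

/-- Start of a period. -/
def per (d : ℕ) (r : ℤ) : ℤ := (4 * d + 2) * r

theorem per_succ (d : ℕ) (r : ℤ) : per d (r + 1) = per d r + 4 * d + 2 := by unfold per; ring

theorem per_pred (d : ℕ) (r : ℤ) : per d (r + -1) = per d r - 4 * d - 2 := by unfold per; ring

theorem per_lt (d : ℕ) {r r' : ℤ} (h : r < r') : per d r + 4 * d + 2 ≤ per d r' := by
  unfold per
  have : (0 : ℤ) ≤ 4 * d + 2 := by positivity
  nlinarith

/-- Template positions. -/
def tm {d : ℕ} (τ : Fin d × Bool) (r : ℤ) (l : Fin d) (b : Bool) : ℤ :=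
  per d r + off τ.1 l b + (if τ.2 then 2 * d + 1 else 0)

theorem tm_le_iff {d : ℕ} (τ : Fin d × Bool) (r r' : ℤ) (l l' : Fin d) (b b' : Bool) :
    tm τ r l b ≤ tm τ r' l' b' ↔
      r < r' ∨ (r = r' ∧ ((l : ℕ) < l' ∨ ((l : ℕ) = l' ∧ (b = true → b' = true)))) := by
  obtain ⟨i, σ⟩ := τ
  have hl := l.2
  have hl' := l'.2
  have hi := i.2
  have h1 := per_lt d (r := r) (r' := r')
  have h2 := per_lt d (r := r') (r' := r)
  have h3 : r = r' → per d r = per d r' := fun h => by rw [h]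
  simp only [tm, off, Fin.ext_iff, Fin.lt_def]
  cases b <;> cases b' <;> simp only [if_true, Bool.false_eq_true, if_false] <;>
    split_ifs <;> simp <;> omega

/-- States. -/
abbrev St (s d : ℕ) := Fin s × Fin d × Bool → ℕ

/-- Value of an endpoint, by an integer period index. -/
def val {s d : ℕ} (x : St s d) (r : ℤ) (l : Fin d) (b : Bool) : ℕ :=
  if h : 0 ≤ r ∧ r < s then x (⟨r.toNat, by omega⟩, l, b) else 0

/-- Order comparisons forced by the templates. -/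
def Cmp {s d : ℕ} (τ τ' : Fin d × Bool) (x x' : St s d) : Prop :=
  ∀ (r r' : ℤ) l l' b b', 0 ≤ r → r < s → 0 ≤ r' → r' < s → tm τ r l b < tm τ' r' l' b' →
    val x r l b < val x' r' l' b'

/-- The geometric part of an edge. -/
structure Geo {s d : ℕ} (i : Fin d) (x x' : St s d) : Prop where
  pq' : ∀ (r : ℤ) l, 0 ≤ r → r < s → val x' r l false ≤ val x' r l true
  e2 : ∀ l, l ≠ i → ∃ δ : ℤ, -1 ≤ δ ∧ δ ≤ 1 ∧ ∀ r : ℤ, 0 ≤ r → r < s → 0 ≤ r + δ → r + δ < s →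
    val x (r + δ) i false ≤ val x' r l false ∧ val x' r l true ≤ val x (r + δ) i true
  e3 : ∀ l, l ≠ i → ∃ δ : ℤ, -1 ≤ δ ∧ δ ≤ 1 ∧ ∀ r : ℤ, 0 ≤ r → r < s → 0 ≤ r + δ → r + δ < s →
    val x' (r + δ) i false ≤ val x r l false ∧ val x r l true ≤ val x' (r + δ) i true
  e4 : ∃ δ : ℤ, 0 ≤ δ ∧ δ ≤ 1 ∧ ∀ r : ℤ, 0 ≤ r → r + 1 < s →
    val x r i true < val x' (r + δ) i false ∧ val x' (r + δ) i false < val x (r + 1) i false

/-- The vector part of an edge. -/
structure Vec {s d : ℕ} (i : Fin d) (x x' : St s d) (μ : ℝ →₀ ℝ) : Prop where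
  e5 : ∀ r : ℤ, 0 ≤ r → r < s → ∀ k : ℕ, val x r i false ≤ k → k ≤ val x r i true →
    tail (k : ℝ) μ = 1
  e6 : ∀ r : ℤ, 0 ≤ r → r < s → ∀ k : ℕ, val x' r i false ≤ k → k ≤ val x' r i true →
    tail (k : ℝ) μ = -1

theorem Vec.neg {s d : ℕ} {i : Fin d} {x x' : St s d} {μ : ℝ →₀ ℝ} (h : Vec i x x' μ) :
    Vec i x' x (-μ) where
  e5 r h1 h2 k h3 h4 := by rw [map_neg, h.e6 r h1 h2 k h3 h4]; simp
  e6 r h1 h2 k h3 h4 := by rw [map_neg, h.e5 r h1 h2 k h3 h4]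

/-- The relation between the two ends of an edge of arc `i`. -/
structure Rel {s d : ℕ} (i : Fin d) (x x' : St s d) : Prop where
  c00 : Cmp (i, false) (i, false) x x
  c11 : Cmp (i, true) (i, true) x' x'
  c01 : Cmp (i, false) (i, true) x x'
  c10 : Cmp (i, true) (i, false) x' x

section
variable {s d : ℕ} {i : Fin d} {x x' : St s d}

theorem pq_of_cmp {τ : Fin d × Bool} (h : Cmp τ τ x x) (r : ℤ) (l : Fin d) (h0 : 0 ≤ r)
    (h1 : r < s) : val x r l false ≤ val x r l true := by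
  refine (h r r l l false true h0 h1 h0 h1 ?_).le
  have := l.2
  simp only [tm, off]
  split_ifs <;> first | omega | simp_all

theorem Rel.in01 (h : Rel i x x') (l : Fin d) (hl : l ≠ i) :
    ∃ δ : ℤ, -1 ≤ δ ∧ δ ≤ 1 ∧ ∀ r : ℤ, 0 ≤ r → r < s → 0 ≤ r + δ → r + δ < s →
      val x (r + δ) i false ≤ val x' r l false ∧ val x' r l true ≤ val x (r + δ) i true := by
  have h1 := l.2
  have h2 := i.2
  have hl' : (l : ℕ) ≠ i := fun hc => hl (Fin.ext hc)
  by_cases hli : l < i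
  · refine ⟨0, by omega, by omega, fun r a1 a2 a3 a4 =>
      ⟨(h.c01 _ _ _ _ _ _ a3 a4 a1 a2 ?_).le, (h.c10 _ _ _ _ _ _ a1 a2 a3 a4 ?_).le⟩⟩ <;>
    · have := Fin.lt_def.1 hli
      simp [tm, off, hl, hli]
      omega
  · refine ⟨1, by omega, by omega, fun r a1 a2 a3 a4 =>
      ⟨(h.c01 _ _ _ _ _ _ a3 a4 a1 a2 ?_).le, (h.c10 _ _ _ _ _ _ a1 a2 a3 a4 ?_).le⟩⟩ <;>
    · have : ¬ (l : ℕ) < i := fun hc => hli (Fin.lt_def.2 hc)
      simp [tm, off, hl, hli, per_succ]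
      omega

theorem Rel.in10 (h : Rel i x x') (l : Fin d) (hl : l ≠ i) :
    ∃ δ : ℤ, -1 ≤ δ ∧ δ ≤ 1 ∧ ∀ r : ℤ, 0 ≤ r → r < s → 0 ≤ r + δ → r + δ < s →
      val x' (r + δ) i false ≤ val x r l false ∧ val x r l true ≤ val x' (r + δ) i true := by
  have h1 := l.2
  have h2 := i.2
  have hl' : (l : ℕ) ≠ i := fun hc => hl (Fin.ext hc)
  by_cases hli : l < i
  · refine ⟨-1, by omega, by omega, fun r a1 a2 a3 a4 =>
      ⟨(h.c10 _ _ _ _ _ _ a3 a4 a1 a2 ?_).le, (h.c01 _ _ _ _ _ _ a1 a2 a3 a4 ?_).le⟩⟩ <;>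
    · have := Fin.lt_def.1 hli
      simp [tm, off, hl, hli, per_pred]
      omega
  · refine ⟨0, by omega, by omega, fun r a1 a2 a3 a4 =>
      ⟨(h.c10 _ _ _ _ _ _ a3 a4 a1 a2 ?_).le, (h.c01 _ _ _ _ _ _ a1 a2 a3 a4 ?_).le⟩⟩ <;>
    · have : ¬ (l : ℕ) < i := fun hc => hli (Fin.lt_def.2 hc)
      simp [tm, off, hl, hli]
      omega

theorem Rel.geo (h : Rel i x x') : Geo i x x' where
  pq' r l := pq_of_cmp h.c11 r l
  e2 := h.in01
  e3 := h.in10
  e4 := ⟨0, le_rfl, by omega, fun r a1 a2 =>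
    ⟨h.c01 _ _ _ _ _ _ a1 (by omega) (by omega) (by omega) (by simp [tm, off]),
      h.c10 _ _ _ _ _ _ (by omega) (by omega) (by omega) (by omega)
        (by simp [tm, off, per_succ]; omega)⟩⟩

theorem Rel.geo' (h : Rel i x x') : Geo i x' x where
  pq' r l := pq_of_cmp h.c00 r l
  e2 := h.in10
  e3 := h.in01
  e4 := ⟨1, by omega, by omega, fun r a1 a2 =>
    ⟨h.c10 _ _ _ _ _ _ a1 (by omega) (by omega) (by omega) (by simp [tm, off, per_succ]; omega),
      h.c01 _ _ _ _ _ _ (by omega) (by omega) (by omega) (by omega)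
        (by simp [tm, off])⟩⟩

theorem Rel.exists_vec {p K θ : ℝ} {Φ : (ℝ →₀ ℝ) → ℝ} (hJ : Jam p K θ Φ) (hp : 0 < p)
    (hθ : 0 < θ) (hs : 1 ≤ s) (h : Rel i x x') : ∃ μ, Φ μ ≤ 2 * kap Φ s ∧ Vec i x x' μ := by
  obtain ⟨μ, h1, h2, h3⟩ := hJ.exists_edge hp hθ hs (fun j => val x j i false)
    (fun j => val x j i true) (fun j => val x' j i false) (fun j => val x' j i true)
    (fun j hj => ⟨pq_of_cmp h.c00 _ _ (by omega) (by omega),
      h.c01 _ _ _ _ _ _ (by omega) (by omega) (by omega) (by omega) (by simp [tm, off]),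
      pq_of_cmp h.c11 _ _ (by omega) (by omega)⟩)
    (fun j j' hj hj' => h.c10 _ _ _ _ _ _ (by omega) (by omega) (by omega) (by omega) (by
      have := per_lt d (r := j) (r' := j') (by omega)
      simp [tm, off]
      omega))
  refine ⟨μ, h1, fun r a1 a2 k a3 a4 => ?_, fun r a1 a2 k a3 a4 => ?_⟩
  · obtain ⟨j, rfl⟩ := Int.eq_ofNat_of_zero_le a1
    exact h2 j (by omega) k a3 a4
  · obtain ⟨j, rfl⟩ := Int.eq_ofNat_of_zero_le a1
    exact h3 j (by omega) k a3 a4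

end

/-- The invariant after `m ≥ 1` non-backtracking steps ending at `x` through arc `i`. -/
def Inv {s d : ℕ} (m : ℕ) (x : St s d) (i : Fin d) (y : ℝ →₀ ℝ) : Prop :=
  ∃ (a b kk : ℤ → ℕ) (Δ' : ℤ), (∀ r : ℤ, 0 ≤ r → r + 1 < s → b r < kk r ∧ kk r < a (r + 1)) ∧
    -m ≤ Δ' ∧ Δ' ≤ m ∧
    (∀ r : ℤ, m ≤ r → r < s - m → tail (kk r : ℝ) y = -m ∧ val x (r + Δ') i false ≤ kk r ∧
      kk r ≤ val x (r + Δ') i true) ∧
    (∀ l, l ≠ i → ∃ Δ : ℤ, -m ≤ Δ ∧ Δ ≤ m ∧ ∀ r : ℤ, m ≤ r → r < s - m →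
      a (r + Δ) ≤ val x r l false ∧ val x r l true ≤ b (r + Δ) ∧
      ∀ k : ℕ, val x r l false ≤ k → k ≤ val x r l true → tail (k : ℝ) y = m) ∧
    ∀ (r : ℤ) l, 0 ≤ r → r < s → val x r l false ≤ val x r l true

section
variable {s d : ℕ} {i : Fin d} {x x' : St s d} {μ y : ℝ →₀ ℝ}

theorem Inv.base (hg : Geo i x x') (hv : Vec i x x' μ) : Inv 1 x' i μ := by
  obtain ⟨δ, d1, d2, d3⟩ := hg.e4
  refine ⟨fun r => val x r i false, fun r => val x r i true, fun r => val x' (r + δ) i false, δ,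
    d3, by omega, by omega, fun r a1 a2 => ?_, fun l hl => ?_, hg.pq'⟩
  · have := hg.pq' (r + δ) i (by omega) (by omega)
    refine ⟨?_, le_rfl, this⟩
    rw [hv.e6 (r + δ) (by omega) (by omega) _ le_rfl this]; simp
  · obtain ⟨δ', b1, b2, b3⟩ := hg.e2 l hl
    refine ⟨δ', by omega, by omega, fun r a1 a2 => ?_⟩
    obtain ⟨c1, c2⟩ := b3 r (by omega) (by omega) (by omega) (by omega)
    refine ⟨c1, c2, fun k k1 k2 => ?_⟩
    rw [hv.e5 (r + δ') (by omega) (by omega) k (by omega) (by omega)]; simp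

theorem Inv.step {m : ℕ} {l : Fin d} (h : Inv m x i y) (hl : l ≠ i) (hg : Geo l x x')
    (hv : Vec l x x' μ) : Inv (m + 1) x' l (y + μ) := by
  obtain ⟨a, b, kk, Δ', h1, h2, h3, h4, h5, h6⟩ := h
  obtain ⟨δ, d1, d2, d3⟩ := hg.e3 i hl.symm
  obtain ⟨Δ, f1, f2, f3⟩ := h5 l hl
  refine ⟨a, b, kk, Δ' + δ, h1, by push_cast; omega, by push_cast; omega, fun r a1 a2 => ?_,
    fun l' hl' => ?_, hg.pq'⟩
  · push_cast at a1 a2
    obtain ⟨c1, c2, c3⟩ := h4 r (by omega) (by omega)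
    obtain ⟨c4, c5⟩ := d3 (r + Δ') (by omega) (by omega) (by omega) (by omega)
    rw [← add_assoc]
    refine ⟨?_, by omega, by omega⟩
    rw [map_add, c1, hv.e6 (r + Δ' + δ) (by omega) (by omega) _ (by omega) (by omega)]
    push_cast; ring
  · obtain ⟨δ', b1, b2, b3⟩ := hg.e2 l' hl'
    refine ⟨δ' + Δ, by push_cast; omega, by push_cast; omega, fun r a1 a2 => ?_⟩
    push_cast at a1 a2
    obtain ⟨c1, c2⟩ := b3 r (by omega) (by omega) (by omega) (by omega)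
    obtain ⟨c3, c4, c5⟩ := f3 (r + δ') (by omega) (by omega)
    rw [← add_assoc]
    refine ⟨by omega, by omega, fun k k1 k2 => ?_⟩
    rw [map_add, c5 k (by omega) (by omega),
      hv.e5 (r + δ') (by omega) (by omega) k (by omega) (by omega)]
    push_cast; ring

theorem Inv.alt {t n : ℕ} (h : Inv t x i y) (ht : 1 ≤ t) (hs : s = n + 4 * t) {l : Fin d}
    (hl : l ≠ i) : Alt n t y := by
  obtain ⟨a, b, kk, Δ', h1, h2, h3, h4, h5, h6⟩ := h
  obtain ⟨Δ, f1, f2, f3⟩ := h5 l hl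
  have key : ∀ j < n, a (2 * t + j) ≤ val x (2 * t + j - Δ) l false ∧
      val x (2 * t + j - Δ) l false < kk (2 * t + j) ∧ kk (2 * t + j) < a (2 * t + j + 1) ∧
      tail (val x (2 * t + j - Δ) l false : ℝ) y = t ∧ tail (kk (2 * t + j) : ℝ) y = -t := by
    intro j hj
    obtain ⟨c1, c2, c3⟩ := f3 (2 * t + j - Δ) (by omega) (by omega)
    have c4 := h6 (2 * t + j - Δ) l (by omega) (by omega)
    obtain ⟨c5, c6⟩ := h1 (2 * t + j) (by omega) (by omega)
    rw [sub_add_cancel] at c1 c2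
    exact ⟨c1, by omega, c6, c3 _ le_rfl c4, (h4 _ (by omega) (by omega)).1⟩
  refine ⟨fun j => (val x (2 * t + j - Δ) l false : ℝ), fun j => (kk (2 * t + j) : ℝ),
    fun j hj => Nat.cast_lt.2 (key j hj).2.1, fun j j' hj hj' => ?_,
    fun j hj => (key j hj).2.2.2⟩
  have : ∀ j', j < j' → j' < n → kk (2 * t + j) < val x (2 * t + j' - Δ) l false := by
    intro j' hj
    induction j', hj using Nat.le_induction with
    | base =>
      intro hj'
      have c1 := key j (by omega)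
      have c2 := key _ hj'
      push_cast at c2 ⊢
      rw [← add_assoc] at c2 ⊢
      omega
    | succ j' hj ih =>
      intro hj'
      have c0 := ih (by omega)
      have c1 := key j' (by omega)
      have c2 := key _ hj'
      push_cast at c2 ⊢
      rw [← add_assoc] at c2 ⊢
      omega
  exact Nat.cast_lt.2 (this j' hj hj')

end

end Crest.Agent.R140
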