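import Crest.Agent.R140.Defs

/-! Row 140 (S0191): the Markov type inequality for antisymmetric edge functions, through a box in
the free abelian cover. -/

set_option autoImplicit false

namespace Crest.Agent.R140

section
variable {V : Type*} [AddCommGroup V] [Module ℝ V] {S T : Type} [Fintype S] [Fintype T]

/-- Expected value of `Φ` at the accumulated edge vectors after `r` steps. -/
noncomputable def Lit (Φ : V → ℝ) (P : T → S → S → ℝ) (μ : T → S → S → V) : ℕ → S → V → ℝ
  | 0, _, y => Φ y
  | r + 1, x, y => ∑ τ, ∑ x', P τ x x' * Lit Φ P μ r x' (y + μ τ x x')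

variable [DecidableEq S] [DecidableEq T]

/-- One step in the cover along the edge `e`. -/
def Stp (star : T → T) {M : ℕ} (e : T × S × S) (m m' : T × S × S → Fin M) : Prop :=
  ∀ e', ((m' e' : ℕ) : ℤ) = (m e' : ℕ) + (if e' = e then 1 else 0) -
    (if e' = (star e.1, e.2.2, e.2.1) then 1 else 0)

instance (star : T → T) {M : ℕ} (e : T × S × S) (m m' : T × S × S → Fin M) :
    Decidable (Stp star e m m') := by unfold Stp; infer_instance

omit [Fintype S] [Fintype T] in
theorem Stp.symm {star : T → T} (hs : ∀ τ, star (star τ) = τ) {M : ℕ} {τ : T} {x x' : S}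
    {m m' : T × S × S → Fin M} (h : Stp star (τ, x, x') m m') :
    Stp star (star τ, x', x) m' m := by
  intro e'
  have := h e'
  simp only [hs] at this ⊢
  linarith

omit [Fintype S] [Fintype T] in
theorem Stp.unique {star : T → T} {M : ℕ} {e : T × S × S}
    {m m' m'' : T × S × S → Fin M} (h : Stp star e m m') (h' : Stp star e m m'') : m' = m'' := by
  funext e'
  have a := h e'
  have b := h' e'
  apply Fin.ext
  omega

omit [Fintype S] [Fintype T] in
theorem Stp.exists_inner (star : T → T) {M r : ℕ} (e : T × S × S) (m : T × S × S → Fin M)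
    (hm : ∀ e', r + 1 ≤ (m e' : ℕ) ∧ (m e' : ℕ) + (r + 1) < M) :
    ∃ m', Stp star e m m' ∧ ∀ e', r ≤ (m' e' : ℕ) ∧ (m' e' : ℕ) + r < M := by
  refine ⟨fun e' => ⟨(m e' : ℕ) + (if e' = e then 1 else 0) -
    (if e' = (star e.1, e.2.2, e.2.1) then 1 else 0), ?_⟩, ?_, ?_⟩
  · have := hm e'
    split_ifs <;> omega
  · intro e'
    have := hm e'
    simp only
    split_ifs <;> omega
  · intro e'
    have := hm e'
    simp only
    split_ifs <;> omega

/-- The function on the cover. -/
noncomputable def fcov (μ : T → S → S → V) {M : ℕ} (m : T × S × S → Fin M) : V :=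
  ∑ e : T × S × S, (((m e : ℕ) : ℝ) / 2) • μ e.1 e.2.1 e.2.2

theorem fcov_step {star : T → T} {μ : T → S → S → V}
    (hμ : ∀ τ x x', μ (star τ) x' x = -μ τ x x') {M : ℕ} {τ : T} {x x' : S}
    {m m' : T × S × S → Fin M} (h : Stp star (τ, x, x') m m') :
    fcov μ m' = fcov μ m + μ τ x x' := by
  have e1 : ∀ e', ((m' e' : ℕ) : ℝ) = (m e' : ℕ) + (if e' = (τ, x, x') then 1 else 0) -
      (if e' = (star τ, x', x) then 1 else 0) := by
    intro e'
    have := h e'
    have := congrArg (fun z : ℤ => (z : ℝ)) this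
    push_cast at this
    exact this
  unfold fcov
  simp only [e1, add_div, sub_div, add_smul, sub_smul, Finset.sum_add_distrib,
    Finset.sum_sub_distrib]
  rw [Finset.sum_eq_single (τ, x, x') (f := fun e : T × S × S =>
      ((if e = (τ, x, x') then (1 : ℝ) else 0) / 2) • μ e.1 e.2.1 e.2.2)
      (fun b _ hb => by simp [hb]) (by simp),
    Finset.sum_eq_single (star τ, x', x) (f := fun e : T × S × S =>
      ((if e = (star τ, x', x) then (1 : ℝ) else 0) / 2) • μ e.1 e.2.1 e.2.2)
      (fun b _ hb => by simp [hb]) (by simp)]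
  simp only [if_true, hμ]
  module

theorem cover_ineq {p K : ℝ} (hp : 0 < p) (hK : 0 ≤ K ^ p) {Φ : V → ℝ} (hΦ : Nice p K Φ)
    (star : T → T) (hs : ∀ τ, star (star τ) = τ) (w : S → ℝ) (hw : ∀ x, 0 ≤ w x)
    (hW : 0 < ∑ x, w x) (P : T → S → S → ℝ) (hP : ∀ τ x x', 0 ≤ P τ x x')
    (hP1 : ∀ x, ∑ τ, ∑ x', P τ x x' ≤ 1)
    (hrev : ∀ τ x x', w x * P τ x x' = w x' * P (star τ) x' x)
    (μ : T → S → S → V) (hμ : ∀ τ x x', μ (star τ) x' x = -μ τ x x') {A : ℝ} (hA0 : 0 ≤ A)
    (hA : ∀ τ x x', Φ (μ τ x x') ≤ A) (t : ℕ) (ht : 1 ≤ t) :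
    ∑ x, w x * Lit Φ P μ t x 0 ≤ 2 * (K ^ p * t * A) * ∑ x, w x := by
  set n := Fintype.card (T × S × S) with hn
  set N := 4 * t * n + 1 with hN
  set M := N + 2 * t with hM
  set W := ∑ x, w x with hWdef
  let B := T × S × S → Fin M
  let P0 : Matrix (S × B) (S × B) ℝ := fun s s' =>
    ∑ τ, if Stp star (τ, s.1, s'.1) s.2 s'.2 then P τ s.1 s'.1 else 0
  have hP0 : ∀ s s', 0 ≤ P0 s s' := fun s s' =>
    Finset.sum_nonneg fun τ _ => by split_ifs; exacts [hP _ _ _, le_rfl]
  have hone : ∀ (e : T × S × S) (m : B) (c : ℝ), 0 ≤ c →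
      ∑ m' : B, (if Stp star e m m' then c else 0) ≤ c := by
    intro e m c hc
    rw [← Finset.sum_filter, Finset.sum_const, nsmul_eq_mul]
    have : (Finset.univ.filter fun m' : B => Stp star e m m').card ≤ 1 :=
      Finset.card_le_one.2 fun a ha b hb =>
        (Finset.mem_filter.1 ha).2.unique (Finset.mem_filter.1 hb).2
    have : ((Finset.univ.filter fun m' : B => Stp star e m m').card : ℝ) ≤ 1 := by
      exact_mod_cast this
    nlinarith
  have hrow : ∀ s, ∑ s', P0 s s' ≤ 1 := by
    intro s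
    refine le_trans ?_ (hP1 s.1)
    rw [Fintype.sum_prod_type, Finset.sum_comm (s := Finset.univ) (t := Finset.univ)
      (f := fun τ x' => P τ s.1 x')]
    refine Finset.sum_le_sum fun x' _ => ?_
    simp only [P0]
    rw [Finset.sum_comm]
    exact Finset.sum_le_sum fun τ _ => hone _ _ _ (hP _ _ _)
  let P' : Matrix (S × B) (S × B) ℝ := fun s s' =>
    P0 s s' + if s = s' then 1 - ∑ s'', P0 s s'' else 0
  have hP'0 : ∀ s s', P0 s s' ≤ P' s s' := fun s s' => by
    simp only [P']
    split_ifs
    · linarith [hrow s]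
    · linarith
  have hP' : ∀ s s', 0 ≤ P' s s' := fun s s' => (hP0 s s').trans (hP'0 s s')
  have hMpos : (0 : ℝ) < M := by positivity
  let w' : S × B → ℝ := fun s => w s.1 / (W * (M : ℝ) ^ n)
  have hw' : ∀ s, 0 ≤ w' s := fun s => div_nonneg (hw _) (by positivity)
  have hcardB : Fintype.card B = M ^ n := by simp [B, hn]
  have hw'1 : ∑ s, w' s = 1 := by
    rw [Fintype.sum_prod_type]
    simp only [w', Finset.sum_const, Finset.card_univ, hcardB, nsmul_eq_mul]
    rw [← Finset.mul_sum, ← Finset.sum_div, ← hWdef]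
    push_cast
    field_simp
  have hP'1 : ∀ s, ∑ s', P' s s' = 1 := by
    intro s
    simp [P', Finset.sum_add_distrib]
  have hrev0 : ∀ s s', w s.1 * P0 s s' = w s'.1 * P0 s' s := by
    intro s s'
    simp only [P0, Finset.mul_sum]
    have hb : Function.Bijective star := Function.Involutive.bijective hs
    refine Finset.sum_bijective star hb (by simp) fun τ _ => ?_
    by_cases h : Stp star (τ, s.1, s'.1) s.2 s'.2
    · rw [if_pos h, if_pos (h.symm hs), hrev]
    · have h' : ¬ Stp star (star τ, s'.1, s.1) s'.2 s.2 := fun h' => by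
        have := h'.symm hs
        rw [hs] at this
        exact h this
      rw [if_neg h, if_neg h']; simp
  have hrev' : ∀ s s', w' s * P' s s' = w' s' * P' s' s := by
    intro s s'
    by_cases h : s = s'
    · rw [h]
    · simp only [P', w', if_neg h, if_neg (Ne.symm h), add_zero]
      rw [div_mul_eq_mul_div, div_mul_eq_mul_div, hrev0]
  let f : S × B → V := fun s => fcov μ s.2
  have main := hΦ.mt (S × B) w' P' hw' hw'1 hP' hP'1 hrev' f t ht
  -- the one-step side
  have hR : ∑ s, ∑ s', w' s * P' s s' * Φ (f s' - f s) ≤ A := by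
    have : ∀ s, ∑ s', w' s * P' s s' * Φ (f s' - f s) ≤ w' s * A := by
      intro s
      have e1 : ∀ s', P' s s' * Φ (f s' - f s) ≤ P0 s s' * A := by
        intro s'
        by_cases h : s = s'
        · subst h
          rw [sub_self, hΦ.zero hp, mul_zero]
          exact mul_nonneg (hP0 _ _) hA0
        · simp only [P', if_neg h, add_zero, P0, Finset.sum_mul]
          refine Finset.sum_le_sum fun τ _ => ?_
          split_ifs with hst
          · have : f s' - f s = μ τ s.1 s'.1 := by
              simp only [f]; rw [fcov_step hμ hst]; simp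
            rw [this]
            exact mul_le_mul_of_nonneg_left (hA _ _ _) (hP _ _ _)
          · simp
      simp only [mul_assoc]
      rw [← Finset.mul_sum]
      refine mul_le_mul_of_nonneg_left ?_ (hw' s)
      refine (Finset.sum_le_sum fun s' _ => e1 s').trans ?_
      rw [← Finset.sum_mul]
      nlinarith [hrow s]
    refine (Finset.sum_le_sum fun s _ => this s).trans ?_
    rw [← Finset.sum_mul, hw'1, one_mul]
  have hpow : ∀ r s s', 0 ≤ (P' ^ r) s s' := by
    intro r
    induction r with
    | zero => intro s s'; rw [pow_zero, Matrix.one_apply]; split_ifs <;> norm_num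
    | succ r ih =>
      intro s s'
      rw [pow_succ, Matrix.mul_apply]
      exact Finset.sum_nonneg fun s'' _ => mul_nonneg (ih _ _) (hP' _ _)
  have hH : ∀ r s z, 0 ≤ ∑ s', (P' ^ r) s s' * Φ (f s' - z) := fun r s z =>
    Finset.sum_nonneg fun s' _ => mul_nonneg (hpow _ _ _) (hΦ.nonneg _)
  have LB : ∀ (r : ℕ) (x : S) (m : B) (z : V), (∀ e', r ≤ (m e' : ℕ) ∧ (m e' : ℕ) + r < M) →
      Lit Φ P μ r x (fcov μ m - z) ≤ ∑ s', (P' ^ r) (x, m) s' * Φ (f s' - z) := by
    intro r
    induction r with
    | zero =>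
      intro x m z _
      simp [Lit, Matrix.one_apply, f]
    | succ r ih =>
      intro x m z hm
      have e1 : ∑ s', (P' ^ (r + 1)) (x, m) s' * Φ (f s' - z) =
          ∑ s'', P' (x, m) s'' * ∑ s', (P' ^ r) s'' s' * Φ (f s' - z) := by
        simp only [pow_succ', Matrix.mul_apply, Finset.sum_mul, Finset.mul_sum, mul_assoc]
        rw [Finset.sum_comm]
      rw [e1, Lit]
      refine le_trans ?_ (Finset.sum_le_sum fun s'' _ =>
        mul_le_mul_of_nonneg_right (hP'0 (x, m) s'') (hH r s'' z))
      rw [Fintype.sum_prod_type, Finset.sum_comm]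
      refine Finset.sum_le_sum fun x' _ => ?_
      simp only [P0, Finset.sum_mul]
      rw [Finset.sum_comm]
      refine Finset.sum_le_sum fun τ _ => ?_
      obtain ⟨m', hm1, hm2⟩ := Stp.exists_inner star (τ, x, x') m hm
      refine le_trans ?_ (Finset.single_le_sum (f := fun m'' : B =>
        (if Stp star (τ, x, x') m m'' then P τ x x' else 0) *
          ∑ s', (P' ^ r) (x', m'') s' * Φ (f s' - z)) (fun m'' _ => mul_nonneg
            (by split_ifs; exacts [hP _ _ _, le_rfl]) (hH _ _ _)) (Finset.mem_univ m'))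
      simp only [if_pos hm1]
      refine mul_le_mul_of_nonneg_left ?_ (hP _ _ _)
      have := ih x' m' z hm2
      rw [fcov_step hμ hm1] at this
      rwa [show fcov μ m + μ τ x x' - z = fcov μ m - z + μ τ x x' by abel] at this
  -- the many-step side
  let emb : (T × S × S → Fin N) ↪ B := ⟨fun g e => ⟨(g e : ℕ) + t, by have := (g e).2; omega⟩,
    fun g g' h => by
      funext e
      have := congrArg (fun m : B => (m e : ℕ)) h
      apply Fin.ext
      simpa using this⟩
  have hL : (N : ℝ) ^ n / (W * (M : ℝ) ^ n) * ∑ x, w x * Lit Φ P μ t x 0 ≤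
      ∑ s, ∑ s', w' s * (P' ^ t) s s' * Φ (f s' - f s) := by
    rw [Fintype.sum_prod_type, Finset.mul_sum]
    refine Finset.sum_le_sum fun x _ => ?_
    have e1 : ∀ m : B, ∑ s', w' (x, m) * (P' ^ t) (x, m) s' * Φ (f s' - f (x, m)) =
        w' (x, m) * ∑ s', (P' ^ t) (x, m) s' * Φ (f s' - f (x, m)) := by
      intro m
      simp only [Finset.mul_sum, mul_assoc]
    simp only [e1]
    refine le_trans ?_ (Finset.sum_le_sum_of_subset_of_nonneg
      (Finset.subset_univ (Finset.univ.map emb)) fun m _ _ => mul_nonneg (hw' _) (hH _ _ _))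
    rw [Finset.sum_map]
    have e2 : ∀ g, w x / (W * (M : ℝ) ^ n) * Lit Φ P μ t x 0 ≤
        w' (x, emb g) * ∑ s', (P' ^ t) (x, emb g) s' * Φ (f s' - f (x, emb g)) := by
      intro g
      refine mul_le_mul_of_nonneg_left ?_ (hw' (x, emb g))
      have := LB t x (emb g) (fcov μ (emb g)) fun e' => by
        have := (g e').2
        have e3 : ((emb g e' : Fin M) : ℕ) = (g e' : ℕ) + t := rfl
        rw [e3]
        omega
      simpa using this
    refine le_trans (le_of_eq ?_) (Finset.sum_le_sum fun g _ => e2 g)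
    simp only [Finset.sum_const, Finset.card_univ, Fintype.card_pi, Fintype.card_fin,
      Finset.prod_const, nsmul_eq_mul, ← hn]
    push_cast
    ring
  have hfrac : (M : ℝ) ^ n ≤ 2 * (N : ℝ) ^ n := by
    have h1 : (1 + n * (-(2 * t / M)) : ℝ) ≤ (1 + -(2 * t / M)) ^ n := by
      refine one_add_mul_le_pow ?_ n
      have : (2 * t / M : ℝ) ≤ 1 := by
        rw [div_le_one hMpos, hM]; push_cast; have : (0 : ℝ) ≤ N := by positivity
        linarith
      linarith
    have h2 : (1 + -(2 * t / M) : ℝ) = N / M := by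
      field_simp
      rw [hM]; push_cast; ring
    have h3 : (n * (2 * t / M) : ℝ) ≤ 1 / 2 := by
      rw [← mul_div_assoc, div_le_iff₀ hMpos, hM, hN]; push_cast
      have : (0 : ℝ) ≤ t := by positivity
      nlinarith
    rw [h2, div_pow, le_div_iff₀ (by positivity)] at h1
    have : (0 : ℝ) < (M : ℝ) ^ n := by positivity
    nlinarith
  have hfin := hL.trans (main.trans (mul_le_mul_of_nonneg_left hR (by positivity)))
  have hX : 0 ≤ K ^ p * t * A := by positivity
  have hMn : (0 : ℝ) < (M : ℝ) ^ n := by positivity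
  have hNn : (0 : ℝ) < (N : ℝ) ^ n := by positivity
  rw [div_mul_eq_mul_div, div_le_iff₀ (by positivity)] at hfin
  have : K ^ p * t * A * (W * (M : ℝ) ^ n) ≤ (N : ℝ) ^ n * (2 * (K ^ p * t * A) * W) := by
    have := mul_le_mul_of_nonneg_left hfrac (mul_nonneg hX hW.le)
    nlinarith
  exact le_of_mul_le_mul_left (hfin.trans this) hNn

end

end Crest.Agent.R140
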