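import Crest.Agent.R140.Defs

/-! Row 140 (S0191): a spreading-invariant ultrafilter on maps `ℝ → ℕ`, and finitely supported
laws on increasing maps whose marginals are almost invariant. -/

set_option autoImplicit false

namespace Crest.Agent.R140

open Filter Topology

noncomputable def uN : Ultrafilter ℕ := Ultrafilter.of atTop

theorem uN_le : (uN : Filter ℕ) ≤ atTop := Ultrafilter.of_le _

theorem mem_ubind {α β : Type*} (f : Ultrafilter α) (m : α → Ultrafilter β) (s : Set β) :
    s ∈ f.bind m ↔ {a | s ∈ m a} ∈ f := Iff.rfl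

theorem ubind_map {α β γ : Type*} (f : Ultrafilter α) (m : α → Ultrafilter β) (g : β → γ) :
    (f.bind m).map g = f.bind (fun a => (m a).map g) :=
  Ultrafilter.ext fun _ => Iff.rfl

theorem ubind_congr_const {α β : Type*} (f : Ultrafilter α) (m : α → Ultrafilter β)
    (c : Ultrafilter β) (h : ∀ᶠ a in f, m a = c) : f.bind m = c := by
  refine Ultrafilter.ext fun s => ?_
  rw [mem_ubind]
  constructor
  · intro hs
    obtain ⟨a, ha1, ha2⟩ := (Filter.Eventually.and (f := (f : Filter α)) hs h).exists
    rw [← ha2]; exact ha1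
  · intro hs
    refine Filter.mem_of_superset h fun a ha => ?_
    simp only [Set.mem_ofPred_eq] at ha ⊢
    rw [ha]; exact hs

/-- Tensor powers of the ultrafilter `uN`. -/
noncomputable def tens : (n : ℕ) → Ultrafilter (Fin n → ℕ)
  | 0 => pure Fin.elim0
  | n + 1 => uN.bind fun a => (tens n).map fun h => Fin.cons a h

theorem ultra_fin0 (f : Ultrafilter (Fin 0 → ℕ)) : f = tens 0 := by
  refine Ultrafilter.ext fun s => ?_
  simp only [tens, Ultrafilter.mem_pure]
  constructor
  · intro hs
    obtain ⟨x, hx⟩ := Ultrafilter.nonempty_of_mem hs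
    rwa [Subsingleton.elim Fin.elim0 x]
  · intro hs
    have : s = Set.univ := Set.eq_univ_of_forall fun x => by rwa [Subsingleton.elim x Fin.elim0]
    rw [this]; exact Filter.univ_mem

theorem tens_proj : ∀ (n m : ℕ) (α : Fin m → Fin n), StrictMono α →
    (tens n).map (fun h => h ∘ α) = tens m
  | _, 0, _, _ => ultra_fin0 _
  | 0, m + 1, α, _ => (α 0).elim0
  | n + 1, m + 1, α, hα => by
    rw [tens, ubind_map]
    by_cases h0 : α 0 = 0
    · have hne : ∀ j : Fin m, α j.succ ≠ 0 := fun j hj => by
        have := hα (Fin.succ_pos j)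
        rw [h0, hj] at this
        exact lt_irrefl _ this
      let α' : Fin m → Fin n := fun j => (α j.succ).pred (hne j)
      have hα' : StrictMono α' := fun i j hij =>
        Fin.pred_lt_pred_iff.2 (hα (Fin.succ_lt_succ_iff.2 hij))
      rw [tens]
      congr 1
      funext a
      rw [← tens_proj n m α' hα', Ultrafilter.map_map, Ultrafilter.map_map]
      congr 1
      funext h
      funext j
      refine Fin.cases ?_ (fun j => ?_) j
      · simp [h0]
      · have : α j.succ = (α' j).succ := by simp [α']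
        simp [this]
    · have hne : ∀ j : Fin (m + 1), α j ≠ 0 := fun j hj => by
        have := hα.monotone (Fin.zero_le j)
        rw [hj] at this
        exact h0 (le_antisymm this (Fin.zero_le _))
      let α' : Fin (m + 1) → Fin n := fun j => (α j).pred (hne j)
      have hα' : StrictMono α' := fun i j hij => Fin.pred_lt_pred_iff.2 (hα hij)
      refine ubind_congr_const _ _ _ (Filter.Eventually.of_forall fun a => ?_)
      rw [← tens_proj n (m + 1) α' hα', Ultrafilter.map_map]
      congr 1
      funext h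
      funext j
      have : α j = (α' j).succ := by simp [α']
      simp [this]

theorem tens_two : {h : Fin 2 → ℕ | h 0 < h 1} ∈ tens 2 := by
  rw [tens, mem_ubind]
  refine Filter.univ_mem' fun a => ?_
  simp only [Set.mem_ofPred_eq, Ultrafilter.mem_map]
  rw [tens, mem_ubind]
  refine Filter.mem_of_superset (uN_le (Filter.eventually_gt_atTop a)) fun b hb => ?_
  simp only [Set.mem_ofPred_eq, Ultrafilter.mem_map, tens, Ultrafilter.mem_pure] at hb ⊢
  simpa using hb

/-- Extension by zero of a tuple indexed along a finite set of reals. -/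
noncomputable def extz (s : Finset ℝ) (h : Fin s.card → ℕ) (q : ℝ) : ℕ :=
  open Classical in if hq : q ∈ s then h ((s.orderIsoOfFin rfl).symm ⟨q, hq⟩) else 0

/-- The spreading-invariant ultrafilter. -/
noncomputable def spr : Ultrafilter (ℝ → ℕ) :=
  (Ultrafilter.of (atTop : Filter (Finset ℝ))).bind fun s => (tens s.card).map (extz s)

theorem spr_proj (m : ℕ) (α : Fin m → ℝ) (hα : StrictMono α) :
    spr.map (fun h => h ∘ α) = tens m := by
  classical
  rw [spr, ubind_map]
  refine ubind_congr_const _ _ _ ?_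
  have hev : ∀ᶠ s : Finset ℝ in atTop, Finset.univ.image α ≤ s := eventually_ge_atTop _
  refine Filter.Eventually.mono (Ultrafilter.of_le _ hev) fun s hs => ?_
  have hmem : ∀ j, α j ∈ s := fun j => hs (Finset.mem_image_of_mem _ (Finset.mem_univ j))
  let α' : Fin m → Fin s.card := fun j => (s.orderIsoOfFin rfl).symm ⟨α j, hmem j⟩
  have hα' : StrictMono α' := fun i j hij =>
    (s.orderIsoOfFin rfl).symm.strictMono (show (⟨α i, hmem i⟩ : s) < ⟨α j, hmem j⟩ from hα hij)
  rw [← tens_proj _ _ α' hα', Ultrafilter.map_map]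
  congr 1
  funext h
  funext j
  simp [extz, hmem j, α']

theorem spr_lt {q q' : ℝ} (h : q < q') : ∀ᶠ g in (spr : Filter (ℝ → ℕ)), g q < g q' := by
  have hα : StrictMono ![q, q'] := by
    intro i j hij
    fin_cases i <;> fin_cases j <;> simp_all
  have := tens_two
  rw [← spr_proj 2 _ hα, Ultrafilter.mem_map] at this
  exact this

theorem spr_eq {A : Type*} [Fintype A] (α β : A → ℝ)
    (h : ∀ a a', α a ≤ α a' ↔ β a ≤ β a') :
    spr.map (fun g => g ∘ α) = spr.map (fun g => g ∘ β) := by
  classical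
  let s : Finset ℝ := Finset.univ.image α
  let e : Fin s.card → ℝ := fun j => s.orderEmbOfFin rfl j
  have he : StrictMono e := (s.orderEmbOfFin rfl).strictMono
  have h1 : ∀ j, ∃ a, α a = e j := fun j => by
    have := s.orderEmbOfFin_mem rfl j
    obtain ⟨a, -, ha⟩ := Finset.mem_image.1 this
    exact ⟨a, ha⟩
  choose r hr using h1
  have h2 : ∀ a, ∃ j, e j = α a := fun a => by
    have : α a ∈ Set.range (s.orderEmbOfFin rfl) := by
      rw [Finset.range_orderEmbOfFin]
      simp [s]
    exact this
  choose idx hidx using h2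
  have hβ : StrictMono (fun j => β (r j)) := fun i j hij => by
    have := he hij
    rw [← hr, ← hr] at this
    exact lt_of_not_ge fun hc => absurd ((h _ _).2 hc) (not_le.2 this)
  have e1 : (fun g : ℝ → ℕ => g ∘ α) = (fun t => t ∘ idx) ∘ (fun g => g ∘ e) := by
    funext g; funext a; simp [hidx]
  have e2 : (fun g : ℝ → ℕ => g ∘ β) = (fun t => t ∘ idx) ∘ (fun g => g ∘ fun j => β (r j)) := by
    funext g; funext a
    have : β (r (idx a)) = β a :=
      le_antisymm ((h _ _).1 (by rw [hr, hidx])) ((h _ _).1 (by rw [hr, hidx]))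
    simp [this]
  rw [e1, e2, ← Ultrafilter.map_map, ← Ultrafilter.map_map, spr_proj _ _ he, spr_proj _ _ hβ]

/-- Finitely supported laws on increasing maps with almost equal marginals along templates of
the same order type. -/
theorem exists_approx_invariant {A I : Type} [Fintype A] [Fintype I] [DecidableEq A]
    [DecidableEq I] (α : I → A → ℝ) (hα : ∀ i j a a', α i a ≤ α i a' ↔ α j a ≤ α j a') (i0 : I)
    {ε : ℝ} (hε : 0 < ε) :
    ∃ (J : Type) (_ : Fintype J) (ν : J → ℝ) (h : J → ℝ → ℕ), (∀ j, 0 ≤ ν j) ∧ ∑ j, ν j = 1 ∧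
      (∀ j i i' a a', α i a < α i' a' → h j (α i a) < h j (α i' a')) ∧
      ∀ F : Finset (A → ℕ), ∑ i, ∑ x ∈ F,
        |∑ j, ν j * (if h j ∘ α i = x then 1 else 0) -
          ∑ j, ν j * (if h j ∘ α i0 = x then 1 else 0)| ≤ ε := by
  classical
  let E := lp (fun _ : I × (A → ℕ) => ℝ) 1
  let δ : I × (A → ℕ) → E := fun z => lp.single 1 z (1 : ℝ)
  let v : (ℝ → ℕ) → E := fun g => ∑ i, (δ (i, g ∘ α i) - δ (i, g ∘ α i0))
  let D : Set (ℝ → ℕ) := {g | ∀ i i' a a', α i a < α i' a' → g (α i a) < g (α i' a')}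
  have hD : ∀ᶠ g in (spr : Filter (ℝ → ℕ)), g ∈ D := by
    simp only [D, Set.mem_ofPred_eq, Filter.eventually_all]
    intro i i' a a' hlt
    exact spr_lt hlt
  have key : ¬ Disjoint (Metric.ball (0 : E) ε) (convexHull ℝ (v '' D)) := by
    intro hdis
    obtain ⟨f, u, hf1, hf2⟩ := geometric_hahn_banach_open (convex_ball _ _) Metric.isOpen_ball
      (convex_convexHull _ _) hdis
    have hu : 0 < u := by simpa using hf1 0 (Metric.mem_ball_self hε)
    have hb : ∀ z, |f (δ z)| ≤ ‖f‖ := fun z => by
      have := f.le_opNorm (δ z)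
      rw [show ‖δ z‖ = 1 from by
        have := lp.norm_single (E := fun _ : I × (A → ℕ) => ℝ) (p := 1) (by simp) z (1 : ℝ)
        rw [norm_one] at this
        exact this] at this
      simpa using this
    have hlim : ∀ i, Tendsto (fun g : ℝ → ℕ => f (δ (i, g ∘ α i)) - f (δ (i, g ∘ α i0))) spr
        (𝓝 0) := by
      intro i
      obtain ⟨x, hx⟩ := exists_tendsto_of_bdd (spr.map fun g => g ∘ α i) (fun y => f (δ (i, y)))
        ‖f‖ fun y => hb _
      have hx' := hx
      rw [spr_eq (α i) (α i0) (hα i i0)] at hx'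
      have a1 : Tendsto (fun g : ℝ → ℕ => f (δ (i, g ∘ α i))) spr (𝓝 x) := hx
      have a2 : Tendsto (fun g : ℝ → ℕ => f (δ (i, g ∘ α i0))) spr (𝓝 x) := hx'
      simpa using a1.sub a2
    have hsum : Tendsto (fun g : ℝ → ℕ => f (v g)) spr (𝓝 0) := by
      have := tendsto_finsetSum Finset.univ fun i _ => hlim i
      simpa [v, map_sum] using this
    have : u ≤ 0 := ge_of_tendsto hsum
      (hD.mono fun g hg => hf2 _ (subset_convexHull _ _ ⟨g, hg, rfl⟩))
    linarith
  rw [Set.not_disjoint_iff] at key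
  obtain ⟨y, hy1, hy2⟩ := key
  obtain ⟨J, _, ν, z, hν0, hν1, hz, hy⟩ := mem_convexHull_iff_exists_fintype.1 hy2
  choose h hD' hv using hz
  refine ⟨J, inferInstance, ν, h, hν0, hν1, fun j => hD' j, fun F => ?_⟩
  have hy3 : ‖y‖ < ε := by simpa using hy1
  have h1 := lp.sum_rpow_le_norm_rpow (p := 1) (by simp) y (Finset.univ ×ˢ F)
  simp only [ENNReal.toReal_one, Real.rpow_one, Real.norm_eq_abs] at h1
  rw [Finset.sum_product] at h1
  refine le_trans (le_of_eq ?_) (h1.trans hy3.le)
  refine Finset.sum_congr rfl fun i _ => Finset.sum_congr rfl fun x _ => ?_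
  congr 1
  rw [← hy, ← Finset.sum_sub_distrib]
  have ev : ∀ (s : Finset J) (g : J → E), (∑ j ∈ s, g j : E) (i, x) = ∑ j ∈ s, g j (i, x) := by
    intro s g
    rw [lp.coeFn_sum]; simp
  rw [ev]
  refine Finset.sum_congr rfl fun j _ => ?_
  rw [← hv j, ← mul_sub]
  have ev2 : (v (h j)) (i, x) = (if h j ∘ α i = x then 1 else 0) -
      (if h j ∘ α i0 = x then 1 else 0) := by
    simp only [v]
    rw [lp.coeFn_sum, Finset.sum_apply, Finset.sum_eq_single i]
    · simp [δ, lp.single_apply, Pi.single_apply, eq_comm]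
    · intro i' _ hi'
      simp [δ, lp.single_apply, hi'.symm]
    · simp
  rw [← ev2]
  rfl

end Crest.Agent.R140
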