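import Crest.Agent.R140.Arcs
import Crest.Agent.R140.Cover
import Crest.Agent.R140.Spread

/-! Row 140 (S0191): no spreading-invariant James-type function has Markov type `p > 1`. -/

set_option autoImplicit false

namespace Crest.Agent.R140

open Filter Topology

/-- Mass of non-backtracking continuations. -/
noncomputable def Gm {S : Type} [Fintype S] {d : ℕ} (P : Fin d × Bool → S → S → ℝ) :
    ℕ → S → Fin d → ℝ
  | 0, _, _ => 1
  | r + 1, x, i => ∑ τ, ∑ x', (if τ.1 = i then 0 else P τ x x') * Gm P r x' τ.1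

theorem Gm_bounds {S : Type} [Fintype S] {d : ℕ} (P : Fin d × Bool → S → S → ℝ)
    (hP : ∀ τ x x', 0 ≤ P τ x x') (hP1 : ∀ x, ∑ τ, ∑ x', P τ x x' ≤ 1) :
    ∀ r x i, 0 ≤ Gm P r x i ∧ Gm P r x i ≤ 1 := by
  intro r
  induction r with
  | zero => intro x i; simp [Gm]
  | succ r ih =>
    intro x i
    rw [Gm]
    constructor
    · refine Finset.sum_nonneg fun τ _ => Finset.sum_nonneg fun x' _ => mul_nonneg ?_ (ih _ _).1
      split_ifs; exacts [le_rfl, hP _ _ _]
    · refine le_trans (Finset.sum_le_sum fun τ _ => Finset.sum_le_sum fun x' _ => ?_) (hP1 x)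
      have := ih x' τ.1
      have := hP τ x x'
      split_ifs <;> nlinarith

theorem Lit_nonneg {V : Type*} [AddCommGroup V] {S T : Type} [Fintype S] [Fintype T]
    (Φ : V → ℝ) (hΦ : ∀ v, 0 ≤ Φ v) (P : T → S → S → ℝ) (hP : ∀ τ x x', 0 ≤ P τ x x')
    (μ : T → S → S → V) : ∀ r x y, 0 ≤ Lit Φ P μ r x y := by
  intro r
  induction r with
  | zero => intro x y; exact hΦ y
  | succ r ih =>
    intro x y
    rw [Lit]
    exact Finset.sum_nonneg fun τ _ => Finset.sum_nonneg fun x' _ => mul_nonneg (hP _ _ _) (ih _ _)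

theorem Jam.elim {p K θ : ℝ} {Φ : (ℝ →₀ ℝ) → ℝ} (hJ : Jam p K θ Φ) (hp : 1 < p)
    (hK : 0 ≤ K ^ p) (hθ : 0 < θ) : False := by
  classical
  have hp0 : 0 < p := by linarith
  obtain ⟨t, ht1, ht2⟩ : ∃ t : ℕ, 1 ≤ t ∧ 32 * K ^ p < (t : ℝ) ^ (p - 1) := by
    have := (tendsto_rpow_atTop (show 0 < p - 1 by linarith)).comp tendsto_natCast_atTop_atTop
    obtain ⟨t, h1, h2⟩ := ((eventually_ge_atTop 1).and (this.eventually_gt_atTop (32 * K ^ p))).exists
    exact ⟨t, h1, h2⟩
  have ht' : (1 : ℝ) ≤ t := by exact_mod_cast ht1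
  obtain ⟨n, hn1, hn2⟩ := hJ.exists_scale hp0 hθ (4 * t)
  set s := n + 4 * t with hs
  set d := 4 * t with hd
  have hd' : (d : ℝ) = 4 * t := by rw [hd]; push_cast; ring
  have hd0 : (0 : ℝ) < d := by rw [hd']; linarith
  let α : Fin d × Bool → Fin s × Fin d × Bool → ℝ := fun τ a => (tm τ (a.1 : ℕ) a.2.1 a.2.2 : ℤ)
  have hα : ∀ i j a a', α i a ≤ α i a' ↔ α j a ≤ α j a' := by
    intro i j a a'
    simp only [α, Int.cast_le, tm_le_iff]
  let i0 : Fin d := ⟨0, by omega⟩
  obtain ⟨J, _, ν, h, hν0, hν1, hmono, hTV⟩ := exists_approx_invariant α hα (i0, false)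
    (ε := 1 / d) (by positivity)
  let F : Finset (St s d) := Finset.univ.image fun z : J × (Fin d × Bool) => h z.1 ∘ α z.2
  have hF : ∀ j τ, h j ∘ α τ ∈ F := fun j τ =>
    Finset.mem_image.2 ⟨(j, τ), Finset.mem_univ _, rfl⟩
  let star : Fin d × Bool → Fin d × Bool := fun τ => (τ.1, !τ.2)
  have hstar : ∀ τ, star (star τ) = τ := fun τ => by simp [star]
  let law : Fin d × Bool → F → ℝ := fun τ x => ∑ j, ν j * (if h j ∘ α τ = x then 1 else 0)
  have hone : ∀ j τ, ∑ x : F, (if h j ∘ α τ = (x : St s d) then (1 : ℝ) else 0) = 1 := by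
    intro j τ
    rw [Finset.sum_eq_single (⟨_, hF j τ⟩ : F)]
    · simp
    · intro b _ hb
      rw [if_neg]
      intro hc
      exact hb (Subtype.ext hc.symm)
    · simp
  have hlaw1 : ∀ τ, ∑ x, law τ x = 1 := by
    intro τ
    simp only [law]
    rw [Finset.sum_comm]
    simp only [← Finset.mul_sum, hone, mul_one, hν1]
  have hlaw0 : ∀ τ x, 0 ≤ law τ x := fun τ x =>
    Finset.sum_nonneg fun j _ => mul_nonneg (hν0 j) (by split_ifs <;> norm_num)
  let w : F → ℝ := fun x => law (i0, false) x + ∑ τ, |law τ x - law (i0, false) x|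
  have hwl : ∀ τ x, law τ x ≤ w x := by
    intro τ x
    have := Finset.single_le_sum (f := fun τ => |law τ x - law (i0, false) x|)
      (fun _ _ => abs_nonneg _) (Finset.mem_univ τ)
    have := le_abs_self (law τ x - law (i0, false) x)
    simp only [w]; linarith
  have hw0 : ∀ x, 0 ≤ w x := fun x => (hlaw0 (i0, false) x).trans (hwl _ x)
  have hW1 : 1 ≤ ∑ x, w x := by
    rw [← hlaw1 (i0, false)]
    exact Finset.sum_le_sum fun x _ => hwl _ x
  have hW2 : ∑ x, w x ≤ 1 + 1 / d := by
    simp only [w]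
    rw [Finset.sum_add_distrib, hlaw1, Finset.sum_comm]
    have := hTV F
    simp only [← Finset.sum_coe_sort F] at this
    linarith
  let Q : Fin d × Bool → F → F → ℝ := fun τ x x' =>
    ∑ j, ν j * ((if h j ∘ α τ = x then 1 else 0) * (if h j ∘ α (star τ) = x' then 1 else 0))
  have hQ0 : ∀ τ x x', 0 ≤ Q τ x x' := fun τ x x' =>
    Finset.sum_nonneg fun j _ => mul_nonneg (hν0 j) (by split_ifs <;> norm_num)
  have hQs : ∀ τ x x', Q (star τ) x' x = Q τ x x' := fun τ x x' => by
    simp only [Q, hstar]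
    exact Finset.sum_congr rfl fun j _ => by ring
  have hQr : ∀ τ x, ∑ x', Q τ x x' = law τ x := by
    intro τ x
    simp only [Q, law]
    rw [Finset.sum_comm]
    simp only [← Finset.mul_sum, hone, mul_one]
  let P : Fin d × Bool → F → F → ℝ := fun τ x x' => Q τ x x' / (2 * d * w x)
  have hP0 : ∀ τ x x', 0 ≤ P τ x x' := fun τ x x' =>
    div_nonneg (hQ0 _ _ _) (mul_nonneg (by positivity) (hw0 x))
  have hwP : ∀ τ x x', w x * P τ x x' = Q τ x x' / (2 * d) := by
    intro τ x x'
    rcases (hw0 x).eq_or_lt with h0 | h0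
    · have : Q τ x x' ≤ 0 := by
        have := Finset.single_le_sum (f := fun x' => Q τ x x') (fun _ _ => hQ0 _ _ _)
          (Finset.mem_univ x')
        rw [hQr] at this
        linarith [hwl τ x]
      rw [← h0, le_antisymm this (hQ0 _ _ _)]; simp
    · simp only [P]; field_simp
  have hP1 : ∀ x, ∑ τ, ∑ x', P τ x x' ≤ 1 := by
    intro x
    rcases (hw0 x).eq_or_lt with h0 | h0
    · simp [P, ← h0]
    · have : ∀ τ, ∑ x', P τ x x' ≤ 1 / (2 * d) := by
        intro τ
        simp only [P]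
        rw [← Finset.sum_div, hQr, div_le_div_iff₀ (by positivity) (by positivity)]
        nlinarith [hwl τ x]
      refine (Finset.sum_le_sum fun τ _ => this τ).trans (le_of_eq ?_)
      simp only [Finset.sum_const, Finset.card_univ, Fintype.card_prod, Fintype.card_fin,
        Fintype.card_bool, nsmul_eq_mul]
      push_cast
      field_simp
  have hrev : ∀ τ x x', w x * P τ x x' = w x' * P (star τ) x' x := fun τ x x' => by
    rw [hwP, hwP, hQs]
  -- relation on charged edges
  have hcmp : ∀ j τ τ', Cmp τ τ' (h j ∘ α τ : St s d) (h j ∘ α τ') := by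
    intro j τ τ' r r' l l' b b' a1 a2 a3 a4 hlt
    simp only [val, dif_pos (And.intro a1 a2), dif_pos (And.intro a3 a4), Function.comp]
    refine hmono j _ _ _ _ ?_
    simp only [α, Int.toNat_of_nonneg a1, Int.toNat_of_nonneg a3]
    exact_mod_cast hlt
  have hrel : ∀ τ (x x' : F), P τ x x' ≠ 0 →
      if τ.2 then Rel τ.1 (x' : St s d) x else Rel τ.1 (x : St s d) x' := by
    intro τ x x' hne
    have hQ : Q τ x x' ≠ 0 := fun hc => hne (by simp [P, hc])
    obtain ⟨j, -, hj⟩ := Finset.exists_ne_zero_of_sum_ne_zero hQ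
    have e1 : h j ∘ α τ = x := by
      by_contra hc
      simp [hc] at hj
    have e2 : h j ∘ α (star τ) = x' := by
      by_contra hc
      simp [hc] at hj
    rw [← e1, ← e2]
    obtain ⟨i, σ⟩ := τ
    cases σ
    · exact ⟨hcmp _ _ _, hcmp _ _ _, hcmp _ _ _, hcmp _ _ _⟩
    · exact ⟨hcmp _ _ _, hcmp _ _ _, hcmp _ _ _, hcmp _ _ _⟩
  have hκ : θ ≤ kap Φ n := hJ.le_kap hp0 hn1
  have hκs : θ ≤ kap Φ s := hJ.le_kap hp0 (by omega)
  have hμ0 : ∀ (i : Fin d) (x x' : St s d), ∃ μ, Φ μ ≤ 2 * kap Φ s ∧ (Rel i x x' → Vec i x x' μ) := by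
    intro i x x'
    by_cases hr : Rel i x x'
    · obtain ⟨μ, a1, a2⟩ := hr.exists_vec hJ hp0 hθ (by omega)
      exact ⟨μ, a1, fun _ => a2⟩
    · exact ⟨0, by rw [hJ.nice.zero hp0]; linarith, fun hc => absurd hc hr⟩
  choose μ0 hμ1 hμ2 using hμ0
  let μ : Fin d × Bool → F → F → (ℝ →₀ ℝ) := fun τ x x' =>
    if τ.2 then -μ0 τ.1 x' x else μ0 τ.1 x x'
  have hμs : ∀ τ x x', μ (star τ) x' x = -μ τ x x' := by
    rintro ⟨i, σ⟩ x x'
    cases σ <;> simp [μ, star]
  have hμA : ∀ τ x x', Φ (μ τ x x') ≤ 2 * kap Φ s := by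
    intro τ x x'
    simp only [μ]
    split_ifs
    · rw [hJ.nice.neg]; exact hμ1 _ _ _
    · exact hμ1 _ _ _
  have hedge : ∀ τ (x x' : F), P τ x x' ≠ 0 →
      Geo τ.1 (x : St s d) x' ∧ Vec τ.1 (x : St s d) x' (μ τ x x') := by
    rintro ⟨i, σ⟩ x x' hne
    have := hrel _ x x' hne
    cases σ
    · exact ⟨Rel.geo this, hμ2 _ _ _ this⟩
    · exact ⟨Rel.geo' this, (hμ2 _ _ _ this).neg⟩
  have main := cover_ineq hp0 hK hJ.nice star hstar w hw0 (by linarith) P hP0 hP1 hrev μ hμs
    (by linarith) hμA t ht1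
  have hG := Gm_bounds P hP0 hP1
  have hL := Lit_nonneg Φ hJ.nice.nonneg P hP0 μ
  set Λ := (t : ℝ) ^ p * kap Φ n with hΛ
  have hΛ0 : 0 ≤ Λ := mul_nonneg (Real.rpow_nonneg (by linarith) _) (by linarith)
  have low : ∀ (r m : ℕ) (x : F) (i : Fin d) (y : ℝ →₀ ℝ), m + r = t →
      ((m = 0 ∧ y = 0) ∨ Inv m (x : St s d) i y) → (m = 0 → y = 0) →
      Λ * Gm P r x i ≤ Lit Φ P μ r x y := by
    intro r
    induction r with
    | zero =>
      intro m x i y hm hI _
      have hm' : m = t := by omega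
      subst hm'
      rcases hI with hI | hI
      · omega
      · obtain ⟨l, hl⟩ : ∃ l : Fin d, l ≠ i := by
          by_cases hi : (i : ℕ) = 0
          · exact ⟨⟨1, by omega⟩, fun hc => by rw [← hc] at hi; simp at hi⟩
          · exact ⟨⟨0, by omega⟩, fun hc => by rw [← hc] at hi; simp at hi⟩
        simpa [Gm, Lit] using hJ.kap_mul_le (by linarith) (hI.alt ht1 hs hl)
    | succ r ih =>
      intro m x i y hm hI h0
      rw [Gm, Lit, Finset.mul_sum]
      refine Finset.sum_le_sum fun τ _ => ?_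
      rw [Finset.mul_sum]
      refine Finset.sum_le_sum fun x' _ => ?_
      split_ifs with hτ
      · simpa using mul_nonneg (hP0 τ x x') (hL _ _ _)
      · by_cases hne : P τ x x' = 0
        · simp [hne]
        · obtain ⟨e1, e2⟩ := hedge τ x x' hne
          have hI' : Inv (m + 1) (x' : St s d) τ.1 (y + μ τ x x') := by
            rcases hI with ⟨rfl, rfl⟩ | hI
            · simpa using Inv.base e1 e2
            · exact hI.step hτ e1 e2
          have := ih (m + 1) x' τ.1 _ (by omega) (Or.inr hI') (by omega)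
          rw [mul_left_comm]
          exact mul_le_mul_of_nonneg_left this (hP0 _ _ _)
  have mass : ∀ (r : ℕ) (i : Fin d), 1 - r * (2 / d : ℝ) ≤ ∑ x, w x * Gm P r x i := by
    intro r
    induction r with
    | zero => intro i; simpa [Gm] using hW1
    | succ r ih =>
      intro i
      have e1 : ∑ x, w x * Gm P (r + 1) x i = ∑ τ : Fin d × Bool,
          if τ.1 = i then 0 else (∑ x', law (star τ) x' * Gm P r x' τ.1) / (2 * d) := by
        simp only [Gm, Finset.mul_sum]
        rw [Finset.sum_comm]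
        refine Finset.sum_congr rfl fun τ _ => ?_
        split_ifs with hτ
        · simp
        · rw [Finset.sum_comm, Finset.sum_div]
          refine Finset.sum_congr rfl fun x' _ => ?_
          simp only [← mul_assoc, hwP]
          rw [← Finset.sum_mul, ← Finset.sum_div, ← hQr (star τ) x']
          simp only [hQs]
          ring
      have e2 : ∀ τ : Fin d × Bool,
          1 - r * (2 / d : ℝ) - 1 / d ≤ ∑ x', law (star τ) x' * Gm P r x' τ.1 := by
        intro τ
        have a1 := ih τ.1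
        have a2 : ∑ x', w x' * Gm P r x' τ.1 - ∑ x', law (star τ) x' * Gm P r x' τ.1 ≤
            ∑ x', w x' - ∑ x', law (star τ) x' := by
          rw [← Finset.sum_sub_distrib, ← Finset.sum_sub_distrib]
          refine Finset.sum_le_sum fun x' _ => ?_
          have := hG r x' τ.1
          have := hwl (star τ) x'
          nlinarith
        rw [hlaw1] at a2
        linarith
      rw [e1]
      set c : ℝ := 1 - r * (2 / d : ℝ) - 1 / d with hc
      have hc1 : c ≤ 1 := by
        have : (0 : ℝ) ≤ r * (2 / d) := by positivity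
        have : (0 : ℝ) ≤ 1 / d := by positivity
        linarith
      have e3 : ∑ τ : Fin d × Bool, (c / (2 * d) - if τ.1 = i then (1 / (2 * d) : ℝ) else 0 : ℝ) ≤
          ∑ τ : Fin d × Bool,
          if τ.1 = i then 0 else (∑ x', law (star τ) x' * Gm P r x' τ.1) / (2 * d) := by
        refine Finset.sum_le_sum fun τ _ => ?_
        split_ifs
        · have := div_le_div_of_nonneg_right hc1 (show (0 : ℝ) ≤ 2 * d by positivity)
          linarith
        · simpa using div_le_div_of_nonneg_right (e2 τ) (show (0 : ℝ) ≤ 2 * d by positivity)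
      refine le_trans (le_of_eq ?_) e3
      have e4 : ∑ τ : Fin d × Bool, (if τ.1 = i then (1 / (2 * d) : ℝ) else 0) = 1 / d := by
        rw [Fintype.sum_prod_type_right]
        simp only [Finset.sum_ite_eq', Finset.mem_univ, if_true, Finset.sum_const,
          Finset.card_univ, Fintype.card_bool, nsmul_eq_mul]
        push_cast
        field_simp
      rw [Finset.sum_sub_distrib, e4]
      simp only [Finset.sum_const, Finset.card_univ, Fintype.card_prod, Fintype.card_fin,
        Fintype.card_bool, nsmul_eq_mul, hc]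
      push_cast
      field_simp
      ring
  have fin1 : Λ * (1 / 2) ≤ ∑ x, w x * Lit Φ P μ t x 0 := by
    have a1 := mass t i0
    have a2 : (t : ℝ) * (2 / d) = 1 / 2 := by rw [hd']; field_simp; ring
    rw [a2] at a1
    refine (mul_le_mul_of_nonneg_left (show 1 / 2 ≤ ∑ x, w x * Gm P t x i0 by linarith) hΛ0).trans ?_
    rw [Finset.mul_sum]
    refine Finset.sum_le_sum fun x _ => ?_
    rw [mul_left_comm]
    exact mul_le_mul_of_nonneg_left (low t 0 x i0 0 (by omega) (Or.inl ⟨rfl, rfl⟩) fun _ => rfl)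
      (hw0 x)
  have hW3 : ∑ x, w x ≤ 2 := by
    have : (1 / d : ℝ) ≤ 1 := by rw [div_le_one hd0, hd']; linarith
    linarith
  have fin2 : 2 * (K ^ p * t * (2 * kap Φ s)) * ∑ x, w x ≤ 16 * K ^ p * t * kap Φ n := by
    have a1 : 0 ≤ K ^ p * t := by positivity
    have a2 : K ^ p * t * (2 * kap Φ s) ≤ K ^ p * t * (4 * kap Φ n) :=
      mul_le_mul_of_nonneg_left (by linarith) a1
    have a3 : 0 ≤ K ^ p * t * (2 * kap Φ s) := mul_nonneg a1 (by linarith)
    nlinarith
  have fin3 : (t : ℝ) ^ p = (t : ℝ) ^ (p - 1) * t := by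
    rw [Real.rpow_sub_one (by linarith)]; field_simp
  have fin4 := fin1.trans (main.trans fin2)
  rw [hΛ, fin3] at fin4
  have a1 : 0 < t * kap Φ n := mul_pos (by linarith) (by linarith)
  nlinarith

end Crest.Agent.R140
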