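import Mathlib

/-! Row 140 (S0191): basic predicates. -/

set_option autoImplicit false

namespace Crest.Agent.R140

open Filter Topology

/-- The Markov type inequality for a function `Φ` playing the role of `‖·‖ ^ p`. -/
def MT {V : Type*} [AddCommGroup V] (p K : ℝ) (Φ : V → ℝ) : Prop :=
  ∀ (S : Type) [Fintype S] [DecidableEq S] (w : S → ℝ) (P : Matrix S S ℝ),
    (∀ i, 0 ≤ w i) → ∑ i, w i = 1 → (∀ i j, 0 ≤ P i j) → (∀ i, ∑ j, P i j = 1) →
    (∀ i j, w i * P i j = w j * P j i) →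
    ∀ (f : S → V) (t : ℕ), 1 ≤ t →
      ∑ i, ∑ j, w i * (P ^ t) i j * Φ (f j - f i) ≤
        K ^ p * t * ∑ i, ∑ j, w i * P i j * Φ (f j - f i)

/-- `p`-homogeneous, convex, nonnegative functions with the Markov type inequality. -/
structure Nice {V : Type*} [AddCommGroup V] [Module ℝ V] (p K : ℝ) (Φ : V → ℝ) : Prop where
  nonneg : ∀ v, 0 ≤ Φ v
  hom : ∀ (c : ℝ) (v : V), Φ (c • v) = |c| ^ p * Φ v
  conv : ConvexOn ℝ Set.univ Φ
  mt : MT p K Φ

section
variable {V W : Type*} [AddCommGroup V] [Module ℝ V] [AddCommGroup W] [Module ℝ W] {p K : ℝ}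

theorem Nice.comp {Φ : W → ℝ} (h : Nice p K Φ) (L : V →ₗ[ℝ] W) : Nice p K (fun v => Φ (L v)) where
  nonneg v := h.nonneg _
  hom c v := by simp only [map_smul, h.hom]
  conv := by
    have := h.conv.comp_linearMap L
    simpa [Function.comp_def] using this
  mt := by
    intro S _ _ w P h1 h2 h3 h4 h5 f t ht
    simpa only [map_sub] using h.mt S w P h1 h2 h3 h4 h5 (fun i => L (f i)) t ht

theorem Nice.add {Φ Ψ : V → ℝ} (h : Nice p K Φ) (h' : Nice p K Ψ) :
    Nice p K (fun v => Φ v + Ψ v) where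
  nonneg v := add_nonneg (h.nonneg _) (h'.nonneg _)
  hom c v := by simp only [h.hom, h'.hom]; ring
  conv := h.conv.add h'.conv
  mt := by
    intro S _ _ w P h1 h2 h3 h4 h5 f t ht
    have a := h.mt S w P h1 h2 h3 h4 h5 f t ht
    have b := h'.mt S w P h1 h2 h3 h4 h5 f t ht
    simp only [mul_add, Finset.sum_add_distrib]
    linarith

theorem Nice.const_mul {Φ : V → ℝ} (h : Nice p K Φ) {c : ℝ} (hc : 0 ≤ c) :
    Nice p K (fun v => c * Φ v) where
  nonneg v := mul_nonneg hc (h.nonneg _)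
  hom c v := by simp only [h.hom]; ring
  conv := by simpa using h.conv.smul hc
  mt := by
    intro S _ _ w P h1 h2 h3 h4 h5 f t ht
    have a := mul_le_mul_of_nonneg_left (h.mt S w P h1 h2 h3 h4 h5 f t ht) hc
    have e1 : ∀ Q : Matrix S S ℝ, ∑ i, ∑ j, w i * Q i j * (c * Φ (f j - f i)) =
        c * ∑ i, ∑ j, w i * Q i j * Φ (f j - f i) := by
      intro Q
      simp only [Finset.mul_sum]
      refine Finset.sum_congr rfl fun i _ => Finset.sum_congr rfl fun j _ => by ring
    rw [e1, e1]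
    linarith

theorem Nice.avg {Φ Ψ : V → ℝ} (h : Nice p K Φ) (h' : Nice p K Ψ) :
    Nice p K (fun v => (Φ v + Ψ v) / 2) := by
  have := (h.add h').const_mul (c := 1 / 2) (by norm_num)
  convert this using 2
  ring

theorem Nice.of_tendsto {ι : Type*} (l : Filter ι) [l.NeBot] (F : ι → V → ℝ) (Φ : V → ℝ)
    (hF : ∀ i, Nice p K (F i)) (hl : ∀ v, Tendsto (fun i => F i v) l (𝓝 (Φ v))) :
    Nice p K Φ where
  nonneg v := ge_of_tendsto' (hl v) fun i => (hF i).nonneg v
  hom c v := by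
    have h1 := hl (c • v)
    have h2 := (hl v).const_mul (|c| ^ p)
    refine tendsto_nhds_unique h1 ?_
    simpa only [(hF _).hom] using h2
  conv := by
    refine ⟨convex_univ, fun x _ y _ a b ha hb hab => ?_⟩
    refine le_of_tendsto_of_tendsto' (hl _) (((hl x).const_mul a).add ((hl y).const_mul b)) ?_
    intro i
    exact (hF i).conv.2 (Set.mem_univ x) (Set.mem_univ y) ha hb hab
  mt := by
    intro S _ _ w P h1 h2 h3 h4 h5 f t ht
    have e : ∀ Q : Matrix S S ℝ, Tendsto (fun n => ∑ i, ∑ j, w i * Q i j * F n (f j - f i)) l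
        (𝓝 (∑ i, ∑ j, w i * Q i j * Φ (f j - f i))) := fun Q =>
      tendsto_finsetSum _ fun i _ => tendsto_finsetSum _ fun j _ => (hl _).const_mul _
    exact le_of_tendsto_of_tendsto' (e _) ((e P).const_mul _)
      fun n => (hF n).mt S w P h1 h2 h3 h4 h5 f t ht

theorem Nice.zero {Φ : V → ℝ} (h : Nice p K Φ) (hp : 0 < p) : Φ 0 = 0 := by
  have := h.hom 0 0
  simpa [Real.zero_rpow hp.ne'] using this

theorem Nice.neg {Φ : V → ℝ} (h : Nice p K Φ) (v : V) : Φ (-v) = Φ v := by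
  have := h.hom (-1) v
  simpa using this

/-- A nice function bounded by one on some vectors is bounded on their combinations. -/
theorem Nice.sum_le {Φ : V → ℝ} (h : Nice p K Φ) (hp : 0 < p) {ι : Type*} (s : Finset ι)
    (c : ι → ℝ) (e : ι → V) (he : ∀ i ∈ s, Φ (e i) ≤ 1) :
    Φ (∑ i ∈ s, c i • e i) ≤ (∑ i ∈ s, |c i|) ^ p := by
  set A := ∑ i ∈ s, |c i| with hA
  have hA0 : 0 ≤ A := Finset.sum_nonneg fun i _ => abs_nonneg _
  rcases hA0.eq_or_lt with h0 | h0
  · have hz : ∀ i ∈ s, c i = 0 := by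
      intro i hi
      have := (Finset.sum_eq_zero_iff_of_nonneg (fun i _ => abs_nonneg (c i))).1 h0.symm i hi
      simpa using this
    have : ∑ i ∈ s, c i • e i = 0 := Finset.sum_eq_zero fun i hi => by simp [hz i hi]
    rw [this, h.zero hp]
    exact Real.rpow_nonneg hA0 _
  · have e1 : ∑ i ∈ s, c i • e i =
        A • ∑ i ∈ s, (|c i| / A) • ((if 0 ≤ c i then (1 : ℝ) else -1) • e i) := by
      rw [Finset.smul_sum]
      refine Finset.sum_congr rfl fun i _ => ?_
      rw [smul_smul, smul_smul]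
      congr 1
      split_ifs with hc
      · rw [abs_of_nonneg hc]; field_simp
      · rw [abs_of_neg (not_le.1 hc)]; field_simp
    rw [e1, h.hom, abs_of_pos h0]
    have e2 := h.conv.map_sum_le (t := s) (w := fun i => |c i| / A)
      (p := fun i => (if 0 ≤ c i then (1 : ℝ) else -1) • e i)
      (fun i _ => div_nonneg (abs_nonneg _) hA0)
      (by rw [← Finset.sum_div, ← hA]; field_simp) (fun i _ => Set.mem_univ _)
    have e3 : ∑ i ∈ s, (|c i| / A) • Φ ((if 0 ≤ c i then (1 : ℝ) else -1) • e i) ≤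
        ∑ i ∈ s, |c i| / A := by
      refine Finset.sum_le_sum fun i hi => ?_
      have : Φ ((if 0 ≤ c i then (1 : ℝ) else -1) • e i) ≤ 1 := by
        split_ifs
        · simpa using he i hi
        · simpa [h.neg] using he i hi
      simpa using mul_le_mul_of_nonneg_left this (div_nonneg (abs_nonneg (c i)) hA0)
    have e4 : ∑ i ∈ s, |c i| / A = 1 := by rw [← Finset.sum_div, ← hA]; field_simp
    have e5 : 0 ≤ A ^ p := Real.rpow_nonneg hA0 _
    nlinarith [e2.trans (e3.trans e4.le)]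

end

/-- Tail sums of a finitely supported family. -/
noncomputable def tail {Ω : Type*} [LinearOrder Ω] (k : Ω) : (Ω →₀ ℝ) →ₗ[ℝ] ℝ :=
  Finsupp.linearCombination ℝ (fun q => if k ≤ q then (1 : ℝ) else 0)

theorem tail_single {Ω : Type*} [LinearOrder Ω] (k q : Ω) (c : ℝ) :
    tail k (Finsupp.single q c) = if k ≤ q then c else 0 := by
  simp [tail]

theorem tail_mapDomain {Ω Ω' : Type*} [LinearOrder Ω] [LinearOrder Ω'] (φ : Ω → Ω') (a : Ω →₀ ℝ)
    (k : Ω) (k' : Ω') (h : ∀ q ∈ a.support, k' ≤ φ q ↔ k ≤ q) :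
    tail k' (a.mapDomain φ) = tail k a := by
  unfold tail
  rw [Finsupp.linearCombination_mapDomain, Finsupp.linearCombination_apply,
    Finsupp.linearCombination_apply]
  refine Finsupp.sum_congr fun q hq => ?_
  simp only [Function.comp, h q hq]

theorem exists_tendsto_of_bdd {ι : Type*} (𝒰 : Ultrafilter ι) (g : ι → ℝ) (C : ℝ)
    (h : ∀ i, |g i| ≤ C) : ∃ x, Tendsto g 𝒰 (𝓝 x) := by
  have hm : Set.Icc (-C) C ∈ (𝒰.map g : Filter ℝ) :=
    Filter.mem_map.2 (Filter.univ_mem' fun i => abs_le.1 (h i))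
  obtain ⟨x, -, hx⟩ := isCompact_Icc.ultrafilter_le_nhds (𝒰.map g) (Filter.le_principal_iff.2 hm)
  exact ⟨x, hx⟩

end Crest.Agent.R140
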