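import Crest.Agent.R140.Defs

/-! Row 140 (S0191): the minimal size of vectors with alternating tail sums. -/

set_option autoImplicit false

namespace Crest.Agent.R140

open Filter Topology

/-- A spreading-invariant James-type function. -/
structure Jam (p K θ : ℝ) (Φ : (ℝ →₀ ℝ) → ℝ) : Prop where
  nice : Nice p K Φ
  up : ∀ q, Φ (Finsupp.single q 1) ≤ 1
  low : ∀ a k, θ * |tail k a| ^ p ≤ Φ a
  inv : ∀ φ : ℝ → ℝ, StrictMono φ → ∀ a, Φ (a.mapDomain φ) = Φ a

/-- `n` pairs of alternating tail sums `c, -c`. -/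
def Alt (n : ℕ) (c : ℝ) (a : ℝ →₀ ℝ) : Prop :=
  ∃ P Q : ℕ → ℝ, (∀ j < n, P j < Q j) ∧ (∀ i j, i < j → j < n → Q i < P j) ∧
    ∀ j < n, tail (P j) a = c ∧ tail (Q j) a = -c

noncomputable def kap (Φ : (ℝ →₀ ℝ) → ℝ) (n : ℕ) : ℝ := sInf (Φ '' {a | Alt n 1 a})

variable {p K θ : ℝ} {Φ : (ℝ →₀ ℝ) → ℝ}

theorem Jam.exists_alt (h : Jam p K θ Φ) (hp : 0 < p) {n : ℕ} (hn : 1 ≤ n) :
    ∃ a, Alt n 1 a ∧ Φ a ≤ (5 * n : ℝ) ^ p := by
  have hn' : (1 : ℝ) ≤ n := by exact_mod_cast hn
  let c : ℕ × Fin 3 → ℝ := fun z => ![(2 : ℝ), -2, 1 / (n : ℝ)] z.2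
  let e : ℕ × Fin 3 → (ℝ →₀ ℝ) := fun z =>
    Finsupp.single (![2 * (z.1 : ℝ), 2 * (z.1 : ℝ) + 1, 2 * n] z.2) 1
  refine ⟨∑ z ∈ Finset.range n ×ˢ Finset.univ, c z • e z,
    ⟨fun j => 2 * j, fun j => 2 * j + 1, fun j _ => by simp, fun i j hij _ => ?_, fun i hi => ?_⟩, ?_⟩
  · have : (i : ℝ) + 1 ≤ j := by exact_mod_cast hij
    linarith
  · have hi' : (i : ℝ) + 1 ≤ n := by exact_mod_cast hi
    simp only [map_sum, Finset.sum_product, Fin.sum_univ_three, map_add, map_smul, c, e, tail_single,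
      smul_eq_mul, Matrix.cons_val_zero, Matrix.cons_val_one, Matrix.cons_val]
    constructor
    · rw [Finset.sum_congr rfl (g := fun _ => (1 / n : ℝ))]
      · simp only [Finset.sum_const, Finset.card_range, nsmul_eq_mul]; field_simp
      · intro j _
        have e1 : (2 * (i : ℝ) ≤ 2 * j) ↔ (2 * (i : ℝ) ≤ 2 * j + 1) := by
          constructor
          · intro h; linarith
          · intro h
            have : 2 * i ≤ 2 * j + 1 := by exact_mod_cast h
            have : 2 * i ≤ 2 * j := by omega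
            exact_mod_cast this
        rw [if_pos (show 2 * (i : ℝ) ≤ 2 * n by linarith)]
        by_cases hc : 2 * (i : ℝ) ≤ 2 * j
        · rw [if_pos hc, if_pos (e1.1 hc)]; ring
        · rw [if_neg hc, if_neg (fun h => hc (e1.2 h))]; ring
    · rw [Finset.sum_congr rfl (g := fun j => (1 / n : ℝ) + if j = i then -2 else 0)]
      · rw [Finset.sum_add_distrib, Finset.sum_ite_eq', if_pos (Finset.mem_range.2 hi)]
        simp only [Finset.sum_const, Finset.card_range, nsmul_eq_mul]; field_simp; ring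
      · intro j _
        rw [if_pos (show 2 * (i : ℝ) + 1 ≤ 2 * n by linarith)]
        rcases lt_trichotomy j i with hj | hj | hj
        · have : (j : ℝ) + 1 ≤ i := by exact_mod_cast hj
          rw [if_neg (by linarith), if_neg (by linarith), if_neg hj.ne]; ring
        · subst hj
          rw [if_neg (by linarith), if_pos le_rfl, if_pos rfl]; ring
        · have : (i : ℝ) + 1 ≤ j := by exact_mod_cast hj
          rw [if_pos (by linarith), if_pos (by linarith), if_neg hj.ne']; ring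
  · refine (h.nice.sum_le hp _ c e fun z _ => h.up _).trans ?_
    refine Real.rpow_le_rpow (Finset.sum_nonneg fun _ _ => abs_nonneg _) ?_ hp.le
    simp only [Finset.sum_product, Fin.sum_univ_three, c, Matrix.cons_val_zero,
      Matrix.cons_val_one, Matrix.cons_val, Finset.sum_const, Finset.card_range, nsmul_eq_mul]
    rw [abs_of_pos (show (0 : ℝ) < 1 / n by positivity), abs_neg, abs_two]
    have : (n : ℝ) * (2 + 2 + 1 / n) = 4 * n + 1 := by field_simp; ring
    linarith

theorem Jam.bdd (h : Jam p K θ Φ) (n : ℕ) : BddBelow (Φ '' {a | Alt n 1 a}) :=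
  ⟨0, by rintro _ ⟨a, -, rfl⟩; exact h.nice.nonneg a⟩

theorem Jam.ne (h : Jam p K θ Φ) (hp : 0 < p) {n : ℕ} (hn : 1 ≤ n) :
    (Φ '' {a | Alt n 1 a}).Nonempty := by
  obtain ⟨a, ha, -⟩ := h.exists_alt hp hn
  exact ⟨_, a, ha, rfl⟩

theorem Jam.kap_le (h : Jam p K θ Φ) (hp : 0 < p) {n : ℕ} (hn : 1 ≤ n) :
    kap Φ n ≤ (5 * n : ℝ) ^ p := by
  obtain ⟨a, ha, ha'⟩ := h.exists_alt hp hn
  exact (csInf_le (h.bdd n) ⟨a, ha, rfl⟩).trans ha'

theorem Jam.le_kap (h : Jam p K θ Φ) (hp : 0 < p) {n : ℕ} (hn : 1 ≤ n) : θ ≤ kap Φ n := by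
  refine le_csInf (h.ne hp hn) ?_
  rintro _ ⟨a, ⟨P, Q, -, -, h3⟩, rfl⟩
  have := h.low a (P 0)
  rw [(h3 0 hn).1] at this
  simpa using this

theorem Jam.kap_mul_le (h : Jam p K θ Φ) {n : ℕ} {c : ℝ} (hc : 0 < c) {y : ℝ →₀ ℝ}
    (hy : Alt n c y) : c ^ p * kap Φ n ≤ Φ y := by
  obtain ⟨P, Q, h1, h2, h3⟩ := hy
  have ha : Alt n 1 (c⁻¹ • y) := ⟨P, Q, h1, h2, fun j hj => by
    simp only [map_smul, (h3 j hj).1, (h3 j hj).2, smul_eq_mul]
    constructor <;> field_simp⟩
  have h4 : kap Φ n ≤ Φ (c⁻¹ • y) := csInf_le (h.bdd n) ⟨_, ha, rfl⟩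
  have h5 : Φ y = c ^ p * Φ (c⁻¹ • y) := by
    have := h.nice.hom c (c⁻¹ • y)
    rw [smul_smul, mul_inv_cancel₀ hc.ne', one_smul, abs_of_pos hc] at this
    exact this
  rw [h5]
  exact mul_le_mul_of_nonneg_left h4 (Real.rpow_nonneg hc.le _)

theorem Jam.exists_scale (h : Jam p K θ Φ) (hp : 0 < p) (hθ : 0 < θ) (g : ℕ) :
    ∃ n, 1 ≤ n ∧ kap Φ (n + g) ≤ 2 * kap Φ n := by
  by_contra hc
  push Not at hc
  have h1 : ∀ j : ℕ, 2 ^ j * θ ≤ kap Φ (1 + g * j) := by
    intro j
    induction j with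
    | zero => simpa using h.le_kap hp le_rfl
    | succ j ih =>
      have := hc (1 + g * j) (by omega)
      rw [show 1 + g * (j + 1) = 1 + g * j + g by ring, pow_succ]
      linarith
  obtain ⟨m, hm⟩ := exists_nat_ge p
  have h2 : ∀ j : ℕ, 1 ≤ j → 2 ^ j * θ ≤ (5 * (1 + g) : ℝ) ^ m * (j : ℝ) ^ m := by
    intro j hj
    have hj' : (1 : ℝ) ≤ j := by exact_mod_cast hj
    have hg : (0 : ℝ) ≤ g := by positivity
    refine (h1 j).trans ((h.kap_le hp (by omega)).trans ?_)
    rw [← mul_pow]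
    have e1 : (5 * ((1 + g * j : ℕ) : ℝ)) ≤ 5 * (1 + g) * j := by push_cast; nlinarith
    have e0 : (1 : ℝ) ≤ 5 * ((1 + g * j : ℕ) : ℝ) := by push_cast; nlinarith
    calc (5 * ((1 + g * j : ℕ) : ℝ)) ^ p ≤ (5 * ((1 + g * j : ℕ) : ℝ)) ^ (m : ℝ) :=
          Real.rpow_le_rpow_of_exponent_le e0 hm
      _ = (5 * ((1 + g * j : ℕ) : ℝ)) ^ m := Real.rpow_natCast _ _
      _ ≤ _ := pow_le_pow_left₀ (by linarith) e1 m
  have h3 := (tendsto_pow_const_div_const_pow_of_one_lt m (r := 2) (by norm_num)).const_mul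
    ((5 * (1 + g) : ℝ) ^ m)
  rw [mul_zero] at h3
  obtain ⟨j, hj1, hj2⟩ := ((h3.eventually (gt_mem_nhds hθ)).and (eventually_ge_atTop 1)).exists
  have := h2 j hj2
  rw [← mul_div_assoc, div_lt_iff₀ (by positivity)] at hj1
  linarith

/-- A nearly minimal vector whose tail sums are constant on prescribed intervals. -/
theorem Jam.exists_edge (h : Jam p K θ Φ) (hp : 0 < p) (hθ : 0 < θ) {n : ℕ} (hn : 1 ≤ n)
    (u u' v v' : ℕ → ℕ) (h1 : ∀ j < n, u j ≤ u' j ∧ u' j < v j ∧ v j ≤ v' j)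
    (h2 : ∀ i j, i < j → j < n → v' i < u j) :
    ∃ x, Φ x ≤ 2 * kap Φ n ∧ (∀ j < n, ∀ k : ℕ, u j ≤ k → k ≤ u' j → tail (k : ℝ) x = 1) ∧
      (∀ j < n, ∀ k : ℕ, v j ≤ k → k ≤ v' j → tail (k : ℝ) x = -1) := by
  have hk := h.le_kap hp hn
  obtain ⟨_, ⟨a, ⟨P, Q, a1, a2, a3⟩, rfl⟩, ha⟩ :=
    exists_lt_of_csInf_lt (h.ne hp hn) (show kap Φ n < 2 * kap Φ n by linarith)
  let g : ℝ → ℕ → ℤ := fun q j => if Q j ≤ q then v' j else if P j ≤ q then u' j else -1
  let ψ : ℝ → ℤ := fun q => (Finset.range n).fold max (-1) (g q)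
  let ι : ℝ → ℝ := fun q => Real.arctan q / Real.pi + 1 / 2
  have hι0 : ∀ q, 0 < ι q := fun q => by
    have := Real.neg_pi_div_two_lt_arctan q
    have h' : -(1 / 2) < Real.arctan q / Real.pi := by
      rw [lt_div_iff₀ Real.pi_pos]; linarith
    simp only [ι]; linarith
  have hι1 : ∀ q, ι q < 1 := fun q => by
    have := Real.arctan_lt_pi_div_two q
    have h' : Real.arctan q / Real.pi < 1 / 2 := by
      rw [div_lt_iff₀ Real.pi_pos]; linarith
    simp only [ι]; linarith
  have hιm : StrictMono ι := fun q q' hq => by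
    have := Real.arctan_strictMono hq
    have := div_lt_div_of_pos_right this Real.pi_pos
    simp only [ι]; linarith
  have hψ : Monotone ψ := by
    intro q q' hq
    simp only [ψ]
    rw [Finset.fold_max_le]
    refine ⟨(Finset.le_fold_max _).2 (Or.inl le_rfl), fun j hj => ?_⟩
    refine (Finset.le_fold_max _).2 (Or.inr ⟨j, hj, ?_⟩)
    have := h1 j (Finset.mem_range.1 hj)
    simp only [g]
    split_ifs <;> first | omega | (exfalso; linarith)
  let φ : ℝ → ℝ := fun q => (ψ q : ℝ) + ι q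
  have hφ : StrictMono φ := fun q q' hq => by
    have e1 : (ψ q : ℝ) ≤ ψ q' := by exact_mod_cast hψ hq.le
    have := hιm hq
    simp only [φ]; linarith
  have hφk : ∀ (k : ℕ) q, (k : ℝ) ≤ φ q ↔ (k : ℤ) ≤ ψ q := by
    intro k q
    constructor
    · intro hk
      have : ((k : ℤ) : ℝ) < ((ψ q + 1 : ℤ) : ℝ) := by
        have := hι1 q
        simp only [φ] at hk
        push_cast; linarith
      have := Int.cast_lt.1 this
      omega
    · intro hk
      have : ((k : ℤ) : ℝ) ≤ ((ψ q : ℤ) : ℝ) := Int.cast_le.2 hk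
      have := hι0 q
      simp only [φ]
      push_cast at *; linarith
  refine ⟨a.mapDomain φ, by rw [h.inv φ hφ]; exact ha.le, fun j hj k hk1 hk2 => ?_,
    fun j hj k hk1 hk2 => ?_⟩
  · rw [tail_mapDomain φ a (P j) _ fun q _ => ?_, (a3 j hj).1]
    rw [hφk]
    simp only [ψ, Finset.le_fold_max, Finset.mem_range]
    have b1 := h1 j hj
    constructor
    · rintro (hc | ⟨i, hi, hc⟩)
      · omega
      · by_contra hq
        have hq := not_le.1 hq
        have b2 := h1 i hi
        have b3 := a1 i hi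
        have b4 := a1 j hj
        have hij : P i ≤ q → i < j := fun hP => by
          by_contra hc'
          rcases (not_lt.1 hc').eq_or_lt with rfl | hlt
          · linarith
          · have := a2 j i hlt hi
            linarith
        simp only [g] at hc
        split_ifs at hc with c1 c2
        · have := h2 i j (hij (by linarith)) hj
          omega
        · have := h2 i j (hij c2) hj
          omega
        · omega
    · intro hq
      refine Or.inr ⟨j, hj, ?_⟩
      simp only [g]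
      split_ifs <;> omega
  · rw [tail_mapDomain φ a (Q j) _ fun q _ => ?_, (a3 j hj).2]
    rw [hφk]
    simp only [ψ, Finset.le_fold_max, Finset.mem_range]
    have b1 := h1 j hj
    constructor
    · rintro (hc | ⟨i, hi, hc⟩)
      · omega
      · by_contra hq
        have hq := not_le.1 hq
        have b2 := h1 i hi
        have b3 := a1 i hi
        have hij : P i ≤ q → i ≤ j := fun hP => by
          by_contra hc'
          have := a2 j i (not_le.1 hc') hi
          linarith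
        simp only [g] at hc
        split_ifs at hc with c1 c2
        · rcases (hij (by linarith)).eq_or_lt with rfl | hlt
          · linarith
          · have := h2 i j hlt hj
            omega
        · rcases (hij c2).eq_or_lt with rfl | hlt
          · omega
          · have := h2 i j hlt hj
            omega
        · omega
    · intro hq
      refine Or.inr ⟨j, hj, ?_⟩
      simp only [g]
      rw [if_pos hq]
      omega

end Crest.Agent.R140
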