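import Crest.Agent.R140.Chain

/-! Row 140 (S0191): Markov type `p > 1` bounds the length of James-type sequences. -/

set_option autoImplicit false

namespace Crest.Agent.R140

open Filter Topology

theorem mapDomain_eq_sum {Ω Ω' : Type*} (g : Ω → Ω') (a : Ω →₀ ℝ) :
    a.mapDomain g = ∑ q ∈ a.support, a q • Finsupp.single (g q) (1 : ℝ) := by
  simp [Finsupp.mapDomain, Finsupp.sum]

theorem Nice.bound {Ω Ω' : Type*} {p K : ℝ} {Φ : (Ω' →₀ ℝ) → ℝ} (h : Nice p K Φ) (hp : 0 < p)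
    (hup : ∀ q, Φ (Finsupp.single q 1) ≤ 1) (g : Ω → Ω') (a : Ω →₀ ℝ) :
    |Φ (a.mapDomain g)| ≤ (∑ q ∈ a.support, |a q|) ^ p := by
  rw [abs_of_nonneg (h.nonneg _), mapDomain_eq_sum]
  exact h.sum_le hp _ _ _ fun q _ => hup _

theorem noJames {p K θ : ℝ} (hp : 1 < p) (hK : 0 ≤ K ^ p) (hθ : 0 < θ) :
    ∃ N : ℕ, ∀ Φ : (ℕ →₀ ℝ) → ℝ, Nice p K Φ → (∀ q, Φ (Finsupp.single q 1) ≤ 1) →
      ¬ ∀ a : ℕ →₀ ℝ, (∀ n ∈ a.support, n < N) → ∀ k, θ * |tail k a| ^ p ≤ Φ a := by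
  classical
  have hp0 : 0 < p := by linarith
  by_contra hc
  push Not at hc
  choose F hF1 hF2 hF3 using hc
  have h1 : ∀ a : ℕ →₀ ℝ, ∃ x, Tendsto (fun N => F N a) uN (𝓝 x) := fun a =>
    exists_tendsto_of_bdd uN _ ((∑ q ∈ a.support, |a q|) ^ p) fun N => by
      simpa using (hF1 N).bound hp0 (hF2 N) id a
  choose Φ₁ hΦ₁ using h1
  have n1 : Nice p K Φ₁ := Nice.of_tendsto uN F Φ₁ hF1 hΦ₁
  have u1 : ∀ q, Φ₁ (Finsupp.single q 1) ≤ 1 := fun q => le_of_tendsto' (hΦ₁ _) fun N => hF2 N q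
  have l1 : ∀ a k, θ * |tail k a| ^ p ≤ Φ₁ a := by
    intro a k
    refine ge_of_tendsto (hΦ₁ a) ?_
    refine Filter.Eventually.mono (uN_le (eventually_gt_atTop (a.support.sup id))) fun N hN => ?_
    exact hF3 N a (fun n hn => lt_of_le_of_lt (Finset.le_sup (f := id) hn) hN) k
  have h2 : ∀ a : ℝ →₀ ℝ, ∃ x, Tendsto (fun g : ℝ → ℕ => Φ₁ (a.mapDomain g)) spr (𝓝 x) := fun a =>
    exists_tendsto_of_bdd spr _ ((∑ q ∈ a.support, |a q|) ^ p) fun g => n1.bound hp0 u1 g a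
  choose Φ hΦ using h2
  refine Jam.elim (Φ := Φ) ⟨?_, ?_, ?_, ?_⟩ hp hK hθ
  · exact Nice.of_tendsto (spr : Filter (ℝ → ℕ)) (fun g a => Φ₁ (Finsupp.lmapDomain ℝ ℝ g a)) Φ
      (fun g => n1.comp _) fun a => hΦ a
  · intro q
    exact le_of_tendsto' (hΦ _) fun g => by simpa using u1 (g q)
  · intro a k
    refine ge_of_tendsto (hΦ a) ?_
    have : ∀ᶠ g in (spr : Filter (ℝ → ℕ)), ∀ q ∈ a.support, (g k ≤ g q ↔ k ≤ q) := by
      rw [Filter.eventually_all_finset]
      intro q _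
      rcases lt_trichotomy k q with hq | rfl | hq
      · exact (spr_lt hq).mono fun g hg => ⟨fun _ => hq.le, fun _ => hg.le⟩
      · exact Filter.Eventually.of_forall fun g => by simp
      · exact (spr_lt hq).mono fun g hg =>
          ⟨fun h => absurd h (not_le.2 hg), fun h => absurd h (not_le.2 hq)⟩
    refine this.mono fun g hg => ?_
    rw [← tail_mapDomain g a k (g k) hg]
    exact l1 _ _
  · intro φ hφ a
    let G : (a.support → ℕ) → ℝ := fun y =>
      Φ₁ (∑ q : a.support, a q • Finsupp.single (y q) (1 : ℝ))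
    have e : ∀ g : ℝ → ℕ, Φ₁ (a.mapDomain g) = G (g ∘ Subtype.val) := by
      intro g
      simp only [G, Function.comp]
      rw [mapDomain_eq_sum, Finset.sum_coe_sort a.support
        (fun q => a q • Finsupp.single (g q) (1 : ℝ))]
    have t1 : Tendsto G (spr.map fun g => g ∘ (Subtype.val : a.support → ℝ)) (𝓝 (Φ a)) := by
      have := hΦ a
      simp only [e] at this
      exact this
    have t2 : Tendsto G (spr.map fun g => g ∘ (fun q : a.support => φ q))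
        (𝓝 (Φ (a.mapDomain φ))) := by
      have := hΦ (a.mapDomain φ)
      simp only [← Finsupp.mapDomain_comp, e] at this
      exact this
    rw [spr_eq (fun q : a.support => φ q) Subtype.val fun q q' => hφ.le_iff_le] at t2
    exact tendsto_nhds_unique t2 t1

end Crest.Agent.R140
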