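import Crest.Agent.R140.Tree
import Crest.Prelude.Def_MarkovType

/-! Row 140 (S0191): the uniformly convex renorming. -/

set_option autoImplicit false

namespace Crest.Agent.R140

universe u

variable {X : Type u} [NormedAddCommGroup X] [NormedSpace ℝ X] {p K ε : ℝ}

theorem key_jump (hp : 1 < p) (hK : 0 ≤ K ^ p) (h : Nice p K (fun x : X => ‖x‖ ^ p))
    (hε : 0 < ε) : ∃ M : ℕ, ∀ (d : X) (l r : Tr X) (x : X), Jmp ε x d →
      Sn ε (gA p) (.node d l r) 0 x ≤
        Sn ε (gA p) (.node d l r) M x / 2 + 3 / 2 * Cn p ε (.node d l r) M x := by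
  have hp0 : 0 < p := by linarith
  set c : ℝ := (1 + 1 / ε) ^ p with hc
  have hc0 : 0 < c := by positivity
  obtain ⟨M, hM⟩ := noJames (θ := 1 / (2 * c)) hp hK (by positivity)
  refine ⟨M, fun d l r x hj => ?_⟩
  set T : Tr X := .node d l r with hT
  have hAD : ∀ k, Sn ε (gA p) T k x ≤ c * Sn ε (gD p) T k x := fun k => by
    refine Sn_le (fun x d hj => ?_) T k x
    have h1 : ‖x‖ ≤ 1 / ε * ‖d‖ := by
      rw [one_div, ← div_eq_inv_mul, le_div_iff₀ hε]; unfold Jmp at hj; linarith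
    have h2 : ∀ z : X, ‖z‖ ≤ ‖x‖ + ‖d‖ → ‖z‖ ^ p ≤ c * ‖d‖ ^ p := fun z hz => by
      rw [hc, ← Real.mul_rpow (by positivity) (norm_nonneg _)]
      exact Real.rpow_le_rpow (norm_nonneg _) (by linarith) hp0.le
    have := h2 _ (norm_add_le x d)
    have := h2 _ (norm_sub_le x d)
    unfold gA gD
    linarith
  have hRm : Monotone fun k => Sn ε (gA p) T k x + Cn p ε T k x :=
    monotone_nat_of_le_succ fun k => R_succ hp.le T k x
  have hCm : Monotone fun k => Cn p ε T k x :=
    monotone_nat_of_le_succ fun k => (Cn_bounds hp.le T k x).2.1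
  have hC0 : Cn p ε T 0 x = 0 := by simp only [hT, Cn, if_pos hj]
  have hA0 : ∀ k, 0 ≤ Sn ε (gA p) T k x := fun k => Sn_nonneg gA_nonneg T k x
  have hCn : ∀ k, 0 ≤ Cn p ε T k x := fun k => (Cn_bounds hp.le T k x).1
  set R := Sn ε (gA p) T M x + Cn p ε T M x with hR
  have hR0 : 0 ≤ R := add_nonneg (hA0 _) (hCn _)
  rcases hR0.eq_or_lt with h0 | h0
  · have := hRm (Nat.zero_le M)
    simp only at this
    linarith [hA0 M, hCn M]
  let L : (ℕ →₀ ℝ) →ₗ[ℝ] X × (ℕ → ℝ) := LinearMap.prod 0 Finsupp.lcoeFun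
  have hL : ∀ a, L a = (0, fun j => a j) := fun a => rfl
  have hn := ((Ps_nice (ε := ε) h T (M + 1) x).comp L).const_mul (c := 1 / R) (by positivity)
  have := hM _ hn fun q => by
    simp only [hL, Finsupp.single_apply]
    rw [Ps_single hp.le, one_div, ← div_eq_inv_mul, div_le_one h0]
    split_ifs with hq
    · exact hRm (Nat.lt_succ_iff.1 hq)
    · exact hR0
  push Not at this
  obtain ⟨a, ha, k, hk⟩ := this
  have e1 : tail k a = ∑ i ∈ Finset.range (M + 1), if k ≤ i then a i else 0 := by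
    unfold tail
    rw [Finsupp.linearCombination_apply, Finsupp.sum_of_support_subset a
      (s := Finset.range (M + 1)) (fun n hn => Finset.mem_range.2 (by have := ha n hn; omega)) _
      (fun _ _ => by simp)]
    simp
  have e2 := Ps_low (ε := ε) hp.le T (M + 1) k x (L a)
  simp only [hL] at e2 hk
  rw [← e1] at e2
  have e0 := (Ps_nice (ε := ε) h T (M + 1) x).nonneg (0, fun j => a j)
  rw [one_div, ← div_eq_inv_mul, div_lt_iff₀ h0] at hk
  have e3 : 0 < |tail k a| ^ p := by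
    by_contra hc'
    have : |tail k a| ^ p = 0 := le_antisymm (not_lt.1 hc') (by positivity)
    rw [this] at hk
    linarith
  have hkM : k ≤ M := by
    by_contra hc'
    have : tail k a = 0 := by
      rw [e1]
      exact Finset.sum_eq_zero fun i hi => if_neg (by have := Finset.mem_range.1 hi; omega)
    rw [this, abs_zero, Real.zero_rpow hp0.ne'] at e3
    exact lt_irrefl _ e3
  have e4 : Sn ε (gD p) T k x ≤ 1 / (2 * c) * R := by
    have : |tail k a| ^ p * Sn ε (gD p) T k x ≤ |tail k a| ^ p * (1 / (2 * c) * R) := by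
      linarith
    exact le_of_mul_le_mul_left this e3
  have e5 : c * Sn ε (gD p) T k x ≤ R / 2 := by
    have := mul_le_mul_of_nonneg_left e4 hc0.le
    rwa [show c * (1 / (2 * c) * R) = R / 2 by field_simp] at this
  have e6 := hRm (Nat.zero_le k)
  have e7 := hCm hkM
  simp only at e6 e7
  linarith [hAD k]

theorem Gn_le_En (hp : 1 < p) (hK : 0 ≤ K ^ p) (h : Nice p K (fun x : X => ‖x‖ ^ p))
    (hε : 0 < ε) : ∃ B : ℝ, 0 < B ∧ ∀ (T : Tr X) (x : X), Gn p ε T x ≤ B * En p T x := by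
  obtain ⟨M, hM⟩ := key_jump hp hK h hε
  have hP : ∀ (T : Tr X) j x, Sn ε (gA p) T j x ≤
      Sn ε (gA p) T (M + j) x / 2 + 3 / 2 * (Cn p ε T (M + j) x - Cn p ε T j x) := by
    intro T
    induction T with
    | leaf => intro j x; simp [Sn, Cn]
    | node d l r ihl ihr =>
      intro j x
      by_cases hj : Jmp ε x d
      · cases j with
        | zero =>
          have := hM d l r x hj
          have hC0 : Cn p ε (.node d l r) 0 x = 0 := by simp only [Cn, if_pos hj]
          rw [hC0, add_zero]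
          linarith
        | succ j =>
          rw [← add_assoc]
          simp only [Sn, Cn, if_pos hj]
          linarith [ihl j (x + d), ihr j (x - d)]
      · have e1 : ∀ i, Sn ε (gA p) (.node d l r) i x =
            (Sn ε (gA p) l i (x + d) + Sn ε (gA p) r i (x - d)) / 2 := by
          intro i
          cases i <;> simp only [Sn, if_neg hj]
        have e3 : ∀ i, Cn p ε (.node d l r) i x =
            (Cn p ε l i (x + d) + Cn p ε r i (x - d)) / 2 := by
          intro i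
          cases i <;> simp only [Cn, if_neg hj]
        simp only [e1, e3]
        linarith [ihl j (x + d), ihr j (x - d)]
  refine ⟨3 * M + 1, by positivity, fun T x => ?_⟩
  set J := T.depth
  have hE : 0 ≤ En p T x := (Real.rpow_nonneg (norm_nonneg x) p).trans (norm_le_En hp.le T x)
  have h1 := Gn_le_sum (p := p) (ε := ε) T J x le_rfl
  have h2 : ∑ k ∈ Finset.range J, Sn ε (gD p) T k x ≤ ∑ k ∈ Finset.range J, Sn ε (gA p) T k x :=
    Finset.sum_le_sum fun k _ => by
      simpa using Sn_le (c := 1) (g := gD p) (g' := gA p)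
        (fun x d _ => by simpa [gA, gD] using mid2 hp.le x d) T k x
  have h3 := Finset.sum_le_sum (s := Finset.range J) fun j _ => hP T j x
  rw [Finset.sum_add_distrib, ← Finset.sum_div, ← Finset.mul_sum, Finset.sum_sub_distrib] at h3
  have h4 : ∑ j ∈ Finset.range J, Sn ε (gA p) T (M + j) x ≤
      ∑ j ∈ Finset.range J, Sn ε (gA p) T j x := by
    have a1 := Finset.sum_range_add (fun j => Sn ε (gA p) T j x) M J
    have a2 := Finset.sum_range_add (fun j => Sn ε (gA p) T j x) J M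
    have a3 : ∑ j ∈ Finset.range M, Sn ε (gA p) T (J + j) x = 0 :=
      Finset.sum_eq_zero fun j _ => Sn_depth T _ x (by omega)
    have a4 : 0 ≤ ∑ j ∈ Finset.range M, Sn ε (gA p) T j x :=
      Finset.sum_nonneg fun j _ => Sn_nonneg gA_nonneg T j x
    rw [add_comm J M] at a2
    linarith
  have h5 : ∑ j ∈ Finset.range J, Cn p ε T (M + j) x - ∑ j ∈ Finset.range J, Cn p ε T j x ≤
      M * En p T x := by
    have a1 := Finset.sum_range_add (fun j => Cn p ε T j x) M J
    have a2 := Finset.sum_range_add (fun j => Cn p ε T j x) J M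
    have a3 : ∑ j ∈ Finset.range M, Cn p ε T (J + j) x ≤ M * En p T x := by
      have := Finset.sum_le_card_nsmul (Finset.range M) (fun j => Cn p ε T (J + j) x) _
        fun j _ => (Cn_bounds hp.le T _ x).2.2
      simpa using this
    have a4 : 0 ≤ ∑ j ∈ Finset.range M, Cn p ε T j x :=
      Finset.sum_nonneg fun j _ => (Cn_bounds hp.le T _ x).1
    rw [add_comm J M] at a2
    linarith
  nlinarith

def Tr.smul (c : ℝ) : Tr X → Tr X
  | .leaf => .leaf
  | .node d l r => .node (c • d) (l.smul c) (r.smul c)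

theorem norm_smul_rpow (c : ℝ) (x : X) : ‖c • x‖ ^ p = |c| ^ p * ‖x‖ ^ p := by
  rw [norm_smul, Real.mul_rpow (norm_nonneg _) (norm_nonneg _), Real.norm_eq_abs]

theorem En_smul (c : ℝ) : ∀ (T : Tr X) x, En p (T.smul c) (c • x) = |c| ^ p * En p T x := by
  intro T
  induction T with
  | leaf => intro x; simp only [Tr.smul, En, norm_smul_rpow]
  | node d l r ihl ihr =>
    intro x
    simp only [Tr.smul, En, ← smul_add, ← smul_sub, ihl, ihr]; ring

theorem Gn_smul {c : ℝ} (hc : c ≠ 0) :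
    ∀ (T : Tr X) x, Gn p ε (T.smul c) (c • x) = |c| ^ p * Gn p ε T x := by
  intro T
  induction T with
  | leaf => intro x; simp [Tr.smul, Gn]
  | node d l r ihl ihr =>
    intro x
    have : Jmp ε (c • x) (c • d) ↔ Jmp ε x d := by
      unfold Jmp
      rw [norm_smul, norm_smul, mul_left_comm]
      exact mul_le_mul_iff_right₀ (norm_pos_iff.2 hc)
    simp only [Tr.smul, Gn, ← smul_add, ← smul_sub, ihl, ihr, this, norm_smul_rpow]
    split_ifs <;> ring

/-- Properties of the convex gauges. -/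
structure Gauge (p : ℝ) (F : X → ℝ) : Prop where
  lo : ∀ x, ‖x‖ ^ p / 2 ≤ F x
  hi : ∀ x, F x ≤ ‖x‖ ^ p
  hom : ∀ (c : ℝ) x, F (c • x) = |c| ^ p * F x
  mid : ∀ m d, F m ≤ (F (m + d) + F (m - d)) / 2

theorem exists_gauge (hp : 1 < p) (hK : 0 ≤ K ^ p) (h : Nice p K (fun x : X => ‖x‖ ^ p))
    (hε : 0 < ε) : ∃ (F : X → ℝ) (γ : ℝ), 0 < γ ∧ Gauge p F ∧
      ∀ m d, Jmp ε m d → F m ≤ (F (m + d) + F (m - d)) / 2 - γ * ‖d‖ ^ p := by
  have hp0 : 0 < p := by linarith
  obtain ⟨B, hB, hG⟩ := Gn_le_En hp hK h hε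
  set γ : ℝ := 1 / (2 * B) with hγ
  have hγ0 : 0 < γ := by positivity
  have : Nonempty (Tr X) := ⟨.leaf⟩
  let φ : Tr X → X → ℝ := fun T x => En p T x - γ * Gn p ε T x
  have hφ : ∀ T x, ‖x‖ ^ p / 2 ≤ φ T x := fun T x => by
    have a1 := mul_le_mul_of_nonneg_left (hG T x) hγ0.le
    rw [show γ * (B * En p T x) = En p T x / 2 by rw [hγ]; field_simp] at a1
    have a2 := norm_le_En hp.le T x
    simp only [φ]; linarith
  have hb : ∀ x, BddBelow (Set.range fun T => φ T x) := fun x =>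
    ⟨_, by rintro _ ⟨T, rfl⟩; exact hφ T x⟩
  let F : X → ℝ := fun x => ⨅ T, φ T x
  have hF : ∀ T x, F x ≤ φ T x := fun T x => ciInf_le (hb x) T
  have lo : ∀ x, ‖x‖ ^ p / 2 ≤ F x := fun x => le_ciInf fun T => hφ T x
  have hi : ∀ x, F x ≤ ‖x‖ ^ p := fun x => by simpa [φ, En, Gn] using hF .leaf x
  have hom1 : ∀ (c : ℝ) x, c ≠ 0 → F (c • x) ≤ |c| ^ p * F x := by
    intro c x hc
    have hc' : 0 < |c| ^ p := Real.rpow_pos_of_pos (abs_pos.2 hc) _
    rw [mul_comm, ← div_le_iff₀ hc']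
    refine le_ciInf fun T => ?_
    rw [div_le_iff₀ hc']
    have := hF (T.smul c) (c • x)
    simp only [φ, En_smul, Gn_smul hc] at this ⊢
    linarith
  have mid : ∀ m d, F m ≤ (F (m + d) + F (m - d)) / 2 -
      γ * (if Jmp ε m d then ‖d‖ ^ p else 0) := by
    intro m d
    have a1 : ∀ T₂, 2 * (F m + γ * (if Jmp ε m d then ‖d‖ ^ p else 0)) - φ T₂ (m - d) ≤
        F (m + d) := fun T₂ => le_ciInf fun T₁ => by
      have := hF (.node d T₁ T₂) m
      simp only [φ, En, Gn] at this ⊢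
      linarith
    have a2 : 2 * (F m + γ * (if Jmp ε m d then ‖d‖ ^ p else 0)) - F (m + d) ≤ F (m - d) :=
      le_ciInf fun T₂ => by linarith [a1 T₂]
    linarith
  refine ⟨F, γ, hγ0, ⟨lo, hi, fun c x => ?_, fun m d => ?_⟩, fun m d hj => ?_⟩
  · by_cases hc : c = 0
    · have a1 := lo 0
      have a2 := hi 0
      simp only [hc, zero_smul, abs_zero, norm_zero, Real.zero_rpow hp0.ne'] at *
      linarith
    · refine le_antisymm (hom1 c x hc) ?_
      have := hom1 c⁻¹ (c • x) (inv_ne_zero hc)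
      rw [smul_smul, inv_mul_cancel₀ hc, one_smul, abs_inv, Real.inv_rpow (abs_nonneg _)] at this
      have hc' : 0 < |c| ^ p := Real.rpow_pos_of_pos (abs_pos.2 hc) _
      rwa [← div_eq_inv_mul, le_div_iff₀ hc', mul_comm] at this
  · have := mid m d
    have : 0 ≤ γ * (if Jmp ε m d then ‖d‖ ^ p else 0) := by
      split_ifs
      · positivity
      · simp
    linarith
  · simpa only [if_pos hj] using mid m d

theorem exists_gauge_all (hp : 1 < p) (hK : 0 ≤ K ^ p) (h : Nice p K (fun x : X => ‖x‖ ^ p)) :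
    ∃ F : X → ℝ, Gauge p F ∧ ∀ ε : ℝ, 0 < ε → ∃ γ : ℝ, 0 < γ ∧
      ∀ m d, Jmp ε m d → F m ≤ (F (m + d) + F (m - d)) / 2 - γ * ‖d‖ ^ p := by
  choose F γ hγ hF hJ using fun n : ℕ => exists_gauge (ε := 1 / ((n : ℝ) + 1)) hp hK h
    (by positivity)
  let w : ℕ → ℝ := fun n => 1 / 2 / 2 ^ n
  have hw : ∀ n, 0 < w n := fun n => by positivity
  have hw1 : HasSum w 1 := hasSum_geometric_two' 1
  have hF0 : ∀ n x, 0 ≤ F n x := fun n x => le_trans (by positivity) ((hF n).lo x)
  have hs : ∀ x, Summable fun n => w n * F n x := fun x =>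
    Summable.of_nonneg_of_le (fun n => mul_nonneg (hw n).le (hF0 n x))
      (fun n => mul_le_mul_of_nonneg_left ((hF n).hi x) (hw n).le) (hw1.summable.mul_right _)
  have hc : ∀ c : ℝ, HasSum (fun n => w n * c) c := fun c => by simpa using hw1.mul_right c
  have hm : ∀ m d : X, HasSum (fun n => w n * ((F n (m + d) + F n (m - d)) / 2 - F n m))
      ((∑' n, w n * F n (m + d) + ∑' n, w n * F n (m - d)) / 2 - ∑' n, w n * F n m) := by
    intro m d
    have := (((hs (m + d)).hasSum.add (hs (m - d)).hasSum).div_const 2).sub (hs m).hasSum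
    have e : (fun n => w n * ((F n (m + d) + F n (m - d)) / 2 - F n m)) =
        fun n => (w n * F n (m + d) + w n * F n (m - d)) / 2 - w n * F n m := by
      funext n; ring
    rw [e]; exact this
  have hm0 : ∀ (m d : X) n, 0 ≤ w n * ((F n (m + d) + F n (m - d)) / 2 - F n m) := fun m d n =>
    mul_nonneg (hw n).le (by linarith [(hF n).mid m d])
  refine ⟨fun x => ∑' n, w n * F n x, ⟨fun x => ?_, fun x => ?_, fun c x => ?_, fun m d => ?_⟩,
    fun ε hε => ?_⟩
  · exact hasSum_le (fun n => mul_le_mul_of_nonneg_left ((hF n).lo x) (hw n).le) (hc _)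
      (hs x).hasSum
  · exact hasSum_le (fun n => mul_le_mul_of_nonneg_left ((hF n).hi x) (hw n).le) (hs x).hasSum
      (hc _)
  · simp only [(hF _).hom, ← tsum_mul_left]
    congr 1; funext n; ring
  · have := (hm m d).nonneg (hm0 m d)
    linarith
  · obtain ⟨n, hn⟩ := exists_nat_one_div_lt hε
    refine ⟨w n * γ n, mul_pos (hw n) (hγ n), fun m d hj => ?_⟩
    have hj' : Jmp (1 / ((n : ℝ) + 1)) m d :=
      le_trans (mul_le_mul_of_nonneg_right hn.le (norm_nonneg _)) hj
    have a1 := le_hasSum (hm m d) n fun j _ => hm0 m d j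
    have a2 := mul_le_mul_of_nonneg_left (hJ n m d hj') (hw n).le
    simp only at a1 ⊢
    nlinarith

theorem Gauge.convex_one {F : X → ℝ} (hF : Gauge p F) (hp : 1 < p) {x y : X} (hx : F x ≤ 1)
    (hy : F y ≤ 1) {a : ℝ} (ha0 : 0 ≤ a) (ha1 : a ≤ 1) : F (a • x + (1 - a) • y) ≤ 1 := by
  let φ : ℝ → ℝ := fun a => F (a • x + (1 - a) • y) - 1
  have hmid : ∀ a b : ℝ, φ ((a + b) / 2) ≤ (φ a + φ b) / 2 := by
    intro a b
    have := hF.mid (((a + b) / 2) • x + (1 - (a + b) / 2) • y) (((a - b) / 2) • (x - y))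
    rw [show ((a + b) / 2) • x + (1 - (a + b) / 2) • y + ((a - b) / 2) • (x - y) =
        a • x + (1 - a) • y by module,
      show ((a + b) / 2) • x + (1 - (a + b) / 2) • y - ((a - b) / 2) • (x - y) =
        b • x + (1 - b) • y by module] at this
    simp only [φ]; linarith
  have hb : BddAbove (φ '' Set.Icc 0 1) := by
    refine ⟨‖x‖ ^ p + ‖y‖ ^ p, ?_⟩
    rintro _ ⟨a, ⟨a0, a1⟩, rfl⟩
    have h1 := hF.hi (a • x + (1 - a) • y)
    have h2 := (convexOn_norm_rpow (X := X) hp.le).2 (Set.mem_univ x) (Set.mem_univ y) a0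
      (show 0 ≤ 1 - a by linarith) (by ring)
    simp only [smul_eq_mul] at h2
    have h3 : 0 ≤ ‖x‖ ^ p := by positivity
    have h4 : 0 ≤ ‖y‖ ^ p := by positivity
    simp only [φ]
    nlinarith
  set S := sSup (φ '' Set.Icc 0 1)
  have hS : ∀ a, 0 ≤ a → a ≤ 1 → φ a ≤ S := fun a a0 a1 => le_csSup hb ⟨a, ⟨a0, a1⟩, rfl⟩
  have h0 : φ 0 ≤ 0 := by simp [φ, hy]
  have h1 : φ 1 ≤ 0 := by simp [φ, hx]
  have hS2 : S ≤ S / 2 := by
    refine csSup_le ⟨_, 0, ⟨le_rfl, zero_le_one⟩, rfl⟩ ?_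
    rintro _ ⟨a, ⟨a0, a1⟩, rfl⟩
    rcases le_total a (1 / 2) with h | h
    · have := hmid 0 (2 * a)
      rw [show (0 + 2 * a) / 2 = a by ring] at this
      linarith [hS (2 * a) (by linarith) (by linarith)]
    · have := hmid 1 (2 * a - 1)
      rw [show (1 + (2 * a - 1)) / 2 = a by ring] at this
      linarith [hS (2 * a - 1) (by linarith) (by linarith)]
  have := hS a ha0 ha1
  simp only [φ] at this
  linarith

theorem renorm (hp : 1 < p) (hK : 0 ≤ K ^ p) (h : Nice p K (fun x : X => ‖x‖ ^ p)) :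
    Crest.AnalysisR.HasEquivUniformlyConvexNorm X := by
  have hp0 : 0 < p := by linarith
  obtain ⟨F, hF, hU⟩ := exists_gauge_all hp hK h
  have hF0 : ∀ x, 0 ≤ F x := fun x => le_trans (by positivity) (hF.lo x)
  let N : X → ℝ := fun x => F x ^ p⁻¹
  have hN0 : ∀ x, 0 ≤ N x := fun x => Real.rpow_nonneg (hF0 x) _
  have hNp : ∀ x, N x ^ p = F x := fun x => Real.rpow_inv_rpow (hF0 x) hp0.ne'
  have hle : ∀ x (c : ℝ), 0 ≤ c → (N x ≤ c ↔ F x ≤ c ^ p) := fun x c hc => by
    rw [← hNp, Real.rpow_le_rpow_iff (hN0 x) hc hp0]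
  have hhi : ∀ x, N x ≤ ‖x‖ := fun x => (hle x _ (norm_nonneg x)).2 (hF.hi x)
  have hlo : ∀ x, 1 / 2 * ‖x‖ ≤ N x := fun x => by
    rw [← Real.rpow_le_rpow_iff (by positivity) (hN0 x) hp0, hNp,
      Real.mul_rpow (by norm_num) (norm_nonneg x)]
    refine le_trans ?_ (hF.lo x)
    have : (1 / 2 : ℝ) ^ p ≤ (1 / 2) ^ (1 : ℝ) :=
      Real.rpow_le_rpow_of_exponent_ge (by norm_num) (by norm_num) hp.le
    rw [Real.rpow_one] at this
    have h3 : 0 ≤ ‖x‖ ^ p := by positivity
    nlinarith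
  have hsm : ∀ (c : ℝ) x, N (c • x) = ‖c‖ * N x := fun c x => by
    simp only [N, hF.hom]
    rw [Real.mul_rpow (by positivity) (hF0 x), Real.rpow_rpow_inv (abs_nonneg c) hp0.ne',
      Real.norm_eq_abs]
  have hadd : ∀ x y, N (x + y) ≤ N x + N y := by
    intro x y
    by_cases hx : x = 0
    · rw [hx, zero_add]; linarith [hN0 0]
    by_cases hy : y = 0
    · rw [hy, add_zero]; linarith [hN0 0]
    have hx0 : 0 < N x := lt_of_lt_of_le (by have := norm_pos_iff.2 hx; positivity) (hlo x)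
    have hy0 : 0 < N y := lt_of_lt_of_le (by have := norm_pos_iff.2 hy; positivity) (hlo y)
    have one : ∀ z, 0 < N z → F ((N z)⁻¹ • z) ≤ 1 := fun z hz => by
      have := (hle ((N z)⁻¹ • z) 1 zero_le_one).1 (by
        rw [hsm, Real.norm_of_nonneg (by positivity), inv_mul_cancel₀ hz.ne'])
      simpa using this
    have := hF.convex_one hp (one x hx0) (one y hy0) (a := N x / (N x + N y)) (by positivity)
      (by rw [div_le_one (by positivity)]; linarith)
    have e : x + y = (N x + N y) • ((N x / (N x + N y)) • (N x)⁻¹ • x +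
        (1 - N x / (N x + N y)) • (N y)⁻¹ • y) := by
      simp only [smul_add, smul_smul]
      rw [show (N x + N y) * (N x / (N x + N y) * (N x)⁻¹) = 1 by field_simp,
        show (N x + N y) * ((1 - N x / (N x + N y)) * (N y)⁻¹) = 1 by field_simp; ring]
      simp
    have e2 := (hle _ 1 zero_le_one).2 (by simpa using this)
    calc N (x + y) = (N x + N y) * N ((N x / (N x + N y)) • (N x)⁻¹ • x +
        (1 - N x / (N x + N y)) • (N y)⁻¹ • y) := by
          conv_lhs => rw [e]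
          rw [hsm, Real.norm_of_nonneg (by positivity)]
      _ ≤ (N x + N y) * 1 := mul_le_mul_of_nonneg_left e2 (by positivity)
      _ = N x + N y := mul_one _
  refine ⟨Seminorm.of N hadd hsm, 1 / 2, 1, by norm_num, by norm_num,
    fun x => ⟨hlo x, by rw [one_mul]; exact hhi x⟩, fun ε hε _ => ?_⟩
  obtain ⟨γ, hγ, hγ'⟩ := hU (ε / 4) (by positivity)
  set η : ℝ := min (γ * (ε / 2) ^ p) (1 / 2) with hη
  have hη0 : 0 < η := lt_min (by positivity) (by norm_num)
  have hη1 : η ≤ 1 / 2 := min_le_right _ _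
  refine ⟨1 - (1 - η) ^ p⁻¹, ?_, fun x y hx hy hxy => ?_⟩
  · have := Real.rpow_lt_one (x := 1 - η) (z := p⁻¹) (by linarith) (by linarith) (by positivity)
    linarith
  · change N x ≤ 1 at hx
    change N y ≤ 1 at hy
    change ε ≤ N (x - y) at hxy
    change N _ ≤ _
    have a1 : ε / 2 ≤ ‖(1 / 2 : ℝ) • (x - y)‖ := by
      rw [norm_smul, Real.norm_of_nonneg (by norm_num)]
      linarith [hhi (x - y)]
    have a2 : ‖(1 / 2 : ℝ) • (x + y)‖ ≤ 2 := by
      rw [norm_smul, Real.norm_of_nonneg (by norm_num)]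
      linarith [hlo x, hlo y, norm_add_le x y]
    have a3 := hγ' ((1 / 2 : ℝ) • (x + y)) ((1 / 2 : ℝ) • (x - y)) (by unfold Jmp; nlinarith)
    rw [show (1 / 2 : ℝ) • (x + y) + (1 / 2 : ℝ) • (x - y) = x by module,
      show (1 / 2 : ℝ) • (x + y) - (1 / 2 : ℝ) • (x - y) = y by module] at a3
    have a4 := (hle x 1 zero_le_one).1 hx
    have a5 := (hle y 1 zero_le_one).1 hy
    rw [Real.one_rpow] at a4 a5
    have a6 : γ * (ε / 2) ^ p ≤ γ * ‖(1 / 2 : ℝ) • (x - y)‖ ^ p :=
      mul_le_mul_of_nonneg_left (Real.rpow_le_rpow (by positivity) a1 hp0.le) hγ.le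
    have a7 : η ≤ γ * (ε / 2) ^ p := min_le_left _ _
    rw [sub_sub_cancel]
    exact Real.rpow_le_rpow (hF0 _) (by linarith) (by positivity)

theorem nice_norm (hp : 1 < p) (hX : Crest.AnalysisR.HasMarkovType X p K) :
    Nice p K (fun x : X => ‖x‖ ^ p) where
  nonneg v := by positivity
  hom c v := norm_smul_rpow c v
  conv := convexOn_norm_rpow hp.le
  mt := hX

end Crest.Agent.R140
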