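import Crest.Agent.R140.Limit

/-! Row 140 (S0191): dyadic martingale trees; the total size of relatively large jumps is
controlled by the final moment when the space has Markov type `p > 1`. -/

set_option autoImplicit false

namespace Crest.Agent.R140

universe u

/-- Finite dyadic martingale trees, given by their increments. -/
inductive Tr (X : Type u) : Type u
  | leaf : Tr X
  | node (d : X) (l r : Tr X) : Tr X

variable {X : Type u} [NormedAddCommGroup X] [NormedSpace ℝ X]

theorem convexOn_norm_rpow {p : ℝ} (hp : 1 ≤ p) :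
    ConvexOn ℝ Set.univ (fun x : X => ‖x‖ ^ p) := by
  refine ⟨convex_univ, fun x _ y _ a b ha hb hab => ?_⟩
  have h1 : ‖a • x + b • y‖ ≤ a * ‖x‖ + b * ‖y‖ := by
    refine (norm_add_le _ _).trans ?_
    rw [norm_smul, norm_smul, Real.norm_of_nonneg ha, Real.norm_of_nonneg hb]
  refine (Real.rpow_le_rpow (norm_nonneg _) h1 (by linarith)).trans ?_
  exact (convexOn_rpow hp).2 (Set.mem_Ici.2 (norm_nonneg x)) (Set.mem_Ici.2 (norm_nonneg y))
    ha hb hab

theorem mid1 {p : ℝ} (hp : 1 ≤ p) (u v : X) : ‖u‖ ^ p ≤ (‖u + v‖ ^ p + ‖u - v‖ ^ p) / 2 := by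
  have := (convexOn_norm_rpow (X := X) hp).2 (Set.mem_univ (u + v)) (Set.mem_univ (u - v))
    (show (0 : ℝ) ≤ 1 / 2 by norm_num) (show (0 : ℝ) ≤ 1 / 2 by norm_num) (by norm_num)
  rw [show (1 / 2 : ℝ) • (u + v) + (1 / 2 : ℝ) • (u - v) = u by module] at this
  simp only [smul_eq_mul] at this
  linarith

theorem mid2 {p : ℝ} (hp : 1 ≤ p) (u v : X) : ‖v‖ ^ p ≤ (‖u + v‖ ^ p + ‖u - v‖ ^ p) / 2 := by
  have := mid1 hp v u
  rwa [add_comm v u, norm_sub_rev v u] at this

/-- Relatively large jumps. -/
def Jmp (ε : ℝ) (x d : X) : Prop := ε * ‖x‖ ≤ ‖d‖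

noncomputable instance (ε : ℝ) (x d : X) : Decidable (Jmp ε x d) := Classical.dec _

def Tr.depth {X : Type u} : Tr X → ℕ
  | .leaf => 0
  | .node _ l r => max l.depth r.depth + 1

/-- Final moment. -/
noncomputable def En (p : ℝ) : Tr X → X → ℝ
  | .leaf, x => ‖x‖ ^ p
  | .node d l r, x => (En p l (x + d) + En p r (x - d)) / 2

/-- Total moment of the large jumps. -/
noncomputable def Gn (p ε : ℝ) : Tr X → X → ℝ
  | .leaf, _ => 0
  | .node d l r, x => (if Jmp ε x d then ‖d‖ ^ p else 0) + (Gn p ε l (x + d) + Gn p ε r (x - d)) / 2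

/-- Expected value of `g` at the jump number `k`. -/
noncomputable def Sn (ε : ℝ) (g : X → X → ℝ) : Tr X → ℕ → X → ℝ
  | .leaf, _, _ => 0
  | .node d l r, 0, x =>
    if Jmp ε x d then g x d else (Sn ε g l 0 (x + d) + Sn ε g r 0 (x - d)) / 2
  | .node d l r, k + 1, x =>
    if Jmp ε x d then (Sn ε g l k (x + d) + Sn ε g r k (x - d)) / 2
    else (Sn ε g l (k + 1) (x + d) + Sn ε g r (k + 1) (x - d)) / 2

/-- Final moment on the paths with at most `k` jumps. -/
noncomputable def Cn (p ε : ℝ) : Tr X → ℕ → X → ℝ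
  | .leaf, _, x => ‖x‖ ^ p
  | .node d l r, 0, x =>
    if Jmp ε x d then 0 else (Cn p ε l 0 (x + d) + Cn p ε r 0 (x - d)) / 2
  | .node d l r, k + 1, x =>
    if Jmp ε x d then (Cn p ε l k (x + d) + Cn p ε r k (x - d)) / 2
    else (Cn p ε l (k + 1) (x + d) + Cn p ε r (k + 1) (x - d)) / 2

noncomputable def gA (p : ℝ) (x d : X) : ℝ := (‖x + d‖ ^ p + ‖x - d‖ ^ p) / 2

noncomputable def gD (p : ℝ) (_ d : X) : ℝ := ‖d‖ ^ p

/-- Record the coefficient of the present jump and shift the others. -/
def sh (z : X) : X × (ℕ → ℝ) →ₗ[ℝ] X × (ℕ → ℝ) where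
  toFun v := (v.1 + v.2 0 • z, fun i => v.2 (i + 1))
  map_add' v w := by
    ext
    · simp only [Prod.fst_add, Prod.snd_add, Pi.add_apply]; module
    · simp
  map_smul' c v := by
    ext
    · simp only [Prod.smul_fst, Prod.smul_snd, Pi.smul_apply, RingHom.id_apply, smul_eq_mul]
      module
    · simp

/-- Put all remaining coefficients on the present value. -/
def lf (n : ℕ) (z : X) : X × (ℕ → ℝ) →ₗ[ℝ] X where
  toFun v := v.1 + (∑ i ∈ Finset.range n, v.2 i) • z
  map_add' v w := by
    simp only [Prod.fst_add, Prod.snd_add, Pi.add_apply, Finset.sum_add_distrib]; module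
  map_smul' c v := by
    simp only [Prod.smul_fst, Prod.smul_snd, Pi.smul_apply, RingHom.id_apply, smul_eq_mul,
      ← Finset.mul_sum]
    module

/-- Moment of a combination of the values after the first `n` jumps. -/
noncomputable def Ps (p ε : ℝ) : Tr X → ℕ → X → X × (ℕ → ℝ) → ℝ
  | .leaf, n, x, v => ‖lf n x v‖ ^ p
  | .node d l r, 0, x, v =>
    if Jmp ε x d then ‖lf 0 x v‖ ^ p else (Ps p ε l 0 (x + d) v + Ps p ε r 0 (x - d) v) / 2
  | .node d l r, n + 1, x, v =>
    if Jmp ε x d then (Ps p ε l n (x + d) (sh (x + d) v) + Ps p ε r n (x - d) (sh (x - d) v)) / 2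
    else (Ps p ε l (n + 1) (x + d) v + Ps p ε r (n + 1) (x - d) v) / 2

variable {p K ε : ℝ}

omit [NormedSpace ℝ X] in
theorem Sn_le {g g' : X → X → ℝ} {c : ℝ} (h : ∀ x d, Jmp ε x d → g x d ≤ c * g' x d) :
    ∀ (T : Tr X) k x, Sn ε g T k x ≤ c * Sn ε g' T k x := by
  intro T
  induction T with
  | leaf => intro k x; simp [Sn]
  | node d l r ihl ihr =>
    intro k x
    cases k with
    | zero =>
      simp only [Sn]
      split_ifs with hj
      · exact h x d hj
      · linarith [ihl 0 (x + d), ihr 0 (x - d)]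
    | succ k =>
      simp only [Sn]
      split_ifs with hj
      · linarith [ihl k (x + d), ihr k (x - d)]
      · linarith [ihl (k + 1) (x + d), ihr (k + 1) (x - d)]

omit [NormedSpace ℝ X] in
theorem Sn_nonneg {g : X → X → ℝ} (h : ∀ x d, 0 ≤ g x d) :
    ∀ (T : Tr X) k x, 0 ≤ Sn ε g T k x := by
  intro T
  induction T with
  | leaf => intro k x; simp [Sn]
  | node d l r ihl ihr =>
    intro k x
    cases k with
    | zero =>
      simp only [Sn]
      split_ifs with hj
      · exact h x d
      · linarith [ihl 0 (x + d), ihr 0 (x - d)]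
    | succ k =>
      simp only [Sn]
      split_ifs with hj
      · linarith [ihl k (x + d), ihr k (x - d)]
      · linarith [ihl (k + 1) (x + d), ihr (k + 1) (x - d)]

omit [NormedSpace ℝ X] in
theorem Sn_depth {g : X → X → ℝ} : ∀ (T : Tr X) k x, T.depth ≤ k → Sn ε g T k x = 0 := by
  intro T
  induction T with
  | leaf => intro k x _; simp [Sn]
  | node d l r ihl ihr =>
    intro k x hk
    simp only [Tr.depth] at hk
    cases k with
    | zero => omega
    | succ k =>
      simp only [Sn]
      rw [ihl k _ (by omega), ihr k _ (by omega), ihl (k + 1) _ (by omega),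
        ihr (k + 1) _ (by omega)]
      simp

omit [NormedSpace ℝ X] in
theorem gA_nonneg (x d : X) : 0 ≤ gA p x d := by unfold gA; positivity

theorem norm_le_En (hp : 1 ≤ p) : ∀ (T : Tr X) x, ‖x‖ ^ p ≤ En p T x := by
  intro T
  induction T with
  | leaf => intro x; simp [En]
  | node d l r ihl ihr =>
    intro x
    simp only [En]
    linarith [ihl (x + d), ihr (x - d), mid1 hp x d]

theorem Cn_bounds (hp : 1 ≤ p) : ∀ (T : Tr X) k x,
    0 ≤ Cn p ε T k x ∧ Cn p ε T k x ≤ Cn p ε T (k + 1) x ∧ Cn p ε T k x ≤ En p T x := by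
  intro T
  induction T with
  | leaf => intro k x; simp [Cn, En]; positivity
  | node d l r ihl ihr =>
    intro k x
    cases k with
    | zero =>
      simp only [Cn, En]
      have a := ihl 0 (x + d)
      have b := ihr 0 (x - d)
      split_ifs with hj
      · refine ⟨le_rfl, by linarith, by linarith⟩
      · refine ⟨by linarith, by linarith, by linarith⟩
    | succ k =>
      simp only [Cn, En]
      have a := ihl k (x + d)
      have b := ihr k (x - d)
      have a' := ihl (k + 1) (x + d)
      have b' := ihr (k + 1) (x - d)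
      split_ifs with hj
      · refine ⟨by linarith, by linarith, by linarith⟩
      · refine ⟨by linarith, by linarith, by linarith⟩

theorem norm_le_R0 (hp : 1 ≤ p) : ∀ (T : Tr X) x,
    ‖x‖ ^ p ≤ Sn ε (gA p) T 0 x + Cn p ε T 0 x := by
  intro T
  induction T with
  | leaf => intro x; simp [Sn, Cn]
  | node d l r ihl ihr =>
    intro x
    simp only [Sn, Cn, gA]
    split_ifs <;> linarith [ihl (x + d), ihr (x - d), mid1 hp x d]

theorem R_succ (hp : 1 ≤ p) : ∀ (T : Tr X) k x,
    Sn ε (gA p) T k x + Cn p ε T k x ≤ Sn ε (gA p) T (k + 1) x + Cn p ε T (k + 1) x := by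
  intro T
  induction T with
  | leaf => intro k x; simp [Sn, Cn]
  | node d l r ihl ihr =>
    intro k x
    cases k with
    | zero =>
      simp only [Sn, Cn, gA]
      split_ifs
      · linarith [norm_le_R0 (ε := ε) hp l (x + d), norm_le_R0 (ε := ε) hp r (x - d)]
      · linarith [ihl 0 (x + d), ihr 0 (x - d)]
    | succ k =>
      simp only [Sn, Cn]
      split_ifs
      · linarith [ihl k (x + d), ihr k (x - d)]
      · linarith [ihl (k + 1) (x + d), ihr (k + 1) (x - d)]

omit [NormedSpace ℝ X] in
theorem Gn_le_sum : ∀ (T : Tr X) J x, T.depth ≤ J →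
    Gn p ε T x ≤ ∑ k ∈ Finset.range J, Sn ε (gD p) T k x := by
  intro T
  induction T with
  | leaf => intro J x _; simp [Gn, Sn]
  | node d l r ihl ihr =>
    intro J x hJ
    simp only [Tr.depth] at hJ
    obtain ⟨J, rfl⟩ : ∃ J', J = J' + 1 := ⟨J - 1, by omega⟩
    by_cases hj : Jmp ε x d
    · rw [Finset.sum_range_succ']
      simp only [Gn, Sn, if_pos hj, gD, ← Finset.sum_div, Finset.sum_add_distrib]
      linarith [ihl J (x + d) (by omega), ihr J (x - d) (by omega)]
    · have : ∀ k, Sn ε (gD p) (.node d l r) k x =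
          (Sn ε (gD p) l k (x + d) + Sn ε (gD p) r k (x - d)) / 2 := by
        intro k
        cases k <;> simp only [Sn, if_neg hj]
      simp only [this, Gn, if_neg hj, ← Finset.sum_div, Finset.sum_add_distrib]
      linarith [ihl (J + 1) (x + d) (by omega), ihr (J + 1) (x - d) (by omega)]

theorem Ps_nice (h : Nice p K (fun x : X => ‖x‖ ^ p)) :
    ∀ (T : Tr X) n x, Nice p K (Ps p ε T n x) := by
  intro T
  induction T with
  | leaf => intro n x; exact h.comp (lf n x)
  | node d l r ihl ihr =>
    intro n x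
    cases n with
    | zero =>
      by_cases hj : Jmp ε x d
      · have : Ps p ε (.node d l r) 0 x = fun v => ‖lf 0 x v‖ ^ p := by
          funext v; simp only [Ps, if_pos hj]
        rw [this]; exact h.comp (lf 0 x)
      · have : Ps p ε (.node d l r) 0 x =
            fun v => (Ps p ε l 0 (x + d) v + Ps p ε r 0 (x - d) v) / 2 := by
          funext v; simp only [Ps, if_neg hj]
        rw [this]; exact (ihl _ _).avg (ihr _ _)
    | succ n =>
      by_cases hj : Jmp ε x d
      · have : Ps p ε (.node d l r) (n + 1) x = fun v =>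
            (Ps p ε l n (x + d) (sh (x + d) v) + Ps p ε r n (x - d) (sh (x - d) v)) / 2 := by
          funext v; simp only [Ps, if_pos hj]
        rw [this]; exact ((ihl _ _).comp _).avg ((ihr _ _).comp _)
      · have : Ps p ε (.node d l r) (n + 1) x =
            fun v => (Ps p ε l (n + 1) (x + d) v + Ps p ε r (n + 1) (x - d) v) / 2 := by
          funext v; simp only [Ps, if_neg hj]
        rw [this]; exact (ihl _ _).avg (ihr _ _)

theorem lf_add (n : ℕ) (x d : X) (v : X × (ℕ → ℝ)) :
    lf n (x + d) v = lf n x v + (∑ i ∈ Finset.range n, v.2 i) • d := by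
  simp only [lf, LinearMap.coe_mk, AddHom.coe_mk]; module

theorem lf_sub (n : ℕ) (x d : X) (v : X × (ℕ → ℝ)) :
    lf n (x - d) v = lf n x v - (∑ i ∈ Finset.range n, v.2 i) • d := by
  simp only [lf, LinearMap.coe_mk, AddHom.coe_mk]; module

theorem lf_sh (n : ℕ) (z : X) (v : X × (ℕ → ℝ)) : lf n z (sh z v) = lf (n + 1) z v := by
  simp only [lf, sh, LinearMap.coe_mk, AddHom.coe_mk, Finset.sum_range_succ']; module

theorem Ps_jensen (hp : 1 ≤ p) : ∀ (T : Tr X) n x v, ‖lf n x v‖ ^ p ≤ Ps p ε T n x v := by
  intro T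
  induction T with
  | leaf => intro n x v; simp [Ps]
  | node d l r ihl ihr =>
    intro n x v
    have m := mid1 hp (lf n x v) ((∑ i ∈ Finset.range n, v.2 i) • d)
    rw [← lf_add, ← lf_sub] at m
    cases n with
    | zero =>
      simp only [Ps]
      split_ifs
      · exact le_rfl
      · linarith [ihl 0 (x + d) v, ihr 0 (x - d) v]
    | succ n =>
      simp only [Ps]
      split_ifs
      · have a := ihl n (x + d) (sh (x + d) v)
        have b := ihr n (x - d) (sh (x - d) v)
        rw [lf_sh] at a b
        linarith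
      · linarith [ihl (n + 1) (x + d) v, ihr (n + 1) (x - d) v]

theorem Ps_low (hp : 1 ≤ p) : ∀ (T : Tr X) n k x (v : X × (ℕ → ℝ)),
    |∑ i ∈ Finset.range n, if k ≤ i then v.2 i else 0| ^ p * Sn ε (gD p) T k x ≤
      Ps p ε T n x v := by
  intro T
  induction T with
  | leaf => intro n k x v; simp only [Sn, Ps, mul_zero]; positivity
  | node d l r ihl ihr =>
    intro n k x v
    by_cases hj : Jmp ε x d
    · cases n with
      | zero =>
        simp only [Ps, if_pos hj, Finset.range_zero, Finset.sum_empty, abs_zero,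
          Real.zero_rpow (show p ≠ 0 by linarith), zero_mul]
        positivity
      | succ n =>
        cases k with
        | zero =>
          simp only [Ps, Sn, if_pos hj, gD, zero_le, if_true]
          have m := mid2 hp (lf (n + 1) x v) ((∑ i ∈ Finset.range (n + 1), v.2 i) • d)
          rw [← lf_add, ← lf_sub, norm_smul, Real.mul_rpow (norm_nonneg _) (norm_nonneg _),
            Real.norm_eq_abs] at m
          have a := Ps_jensen (ε := ε) hp l n (x + d) (sh (x + d) v)
          have b := Ps_jensen (ε := ε) hp r n (x - d) (sh (x - d) v)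
          rw [lf_sh] at a b
          linarith
        | succ k =>
          have a := ihl n k (x + d) (sh (x + d) v)
          have b := ihr n k (x - d) (sh (x - d) v)
          simp only [Ps, Sn, if_pos hj, Finset.sum_range_succ', Nat.add_le_add_iff_right,
            show ¬ (k + 1 ≤ 0) by omega, if_false, add_zero]
          simp only [sh, LinearMap.coe_mk, AddHom.coe_mk] at a b ⊢
          linarith
    · have e1 : Sn ε (gD p) (.node d l r) k x =
          (Sn ε (gD p) l k (x + d) + Sn ε (gD p) r k (x - d)) / 2 := by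
        cases k <;> simp only [Sn, if_neg hj]
      have e2 : Ps p ε (.node d l r) n x v =
          (Ps p ε l n (x + d) v + Ps p ε r n (x - d) v) / 2 := by
        cases n <;> simp only [Ps, if_neg hj]
      rw [e1, e2]
      linarith [ihl n k (x + d) v, ihr n k (x - d) v]

theorem Ps_zero : ∀ (T : Tr X) n x (y : X), Ps p ε T n x (y, 0) = ‖y‖ ^ p := by
  intro T
  induction T with
  | leaf => intro n x y; simp [Ps, lf]
  | node d l r ihl ihr =>
    intro n x y
    have e : ∀ z : X, sh z (y, 0) = (y, 0) := fun z => by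
      simp only [sh, LinearMap.coe_mk, AddHom.coe_mk, Pi.zero_apply, zero_smul, add_zero]; rfl
    cases n with
    | zero => simp [Ps, lf, ihl, ihr]
    | succ n => simp [Ps, e, ihl, ihr]

theorem Ps_single (hp : 1 ≤ p) : ∀ (T : Tr X) n i x,
    Ps p ε T n x (0, fun j => if i = j then 1 else 0) =
      if i < n then Sn ε (gA p) T i x + Cn p ε T i x else 0 := by
  have hp0 : p ≠ 0 := by linarith
  intro T
  induction T with
  | leaf =>
    intro n i x
    simp only [Ps, lf, Sn, Cn, LinearMap.coe_mk, AddHom.coe_mk, Finset.sum_ite_eq,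
      Finset.mem_range, zero_add]
    split_ifs <;> simp [Real.zero_rpow hp0]
  | node d l r ihl ihr =>
    intro n i x
    by_cases hj : Jmp ε x d
    · cases n with
      | zero => simp [Ps, lf, hj, Real.zero_rpow hp0]
      | succ n =>
        cases i with
        | zero =>
          have e : ∀ z : X, sh z (0, fun j => if 0 = j then 1 else 0) = (z, 0) := fun z => by
            simp only [sh, LinearMap.coe_mk, AddHom.coe_mk]
            ext <;> simp
          simp only [Ps, if_pos hj, e, Ps_zero, Sn, Cn, gA]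
          simp
        | succ i =>
          have e : ∀ z : X, sh z (0, fun j => if i + 1 = j then 1 else 0) =
              (0, fun j => if i = j then 1 else 0) := fun z => by
            simp only [sh, LinearMap.coe_mk, AddHom.coe_mk]
            ext <;> simp
          simp only [Ps, if_pos hj, e, ihl, ihr, Sn, Cn, Nat.add_lt_add_iff_right]
          split_ifs <;> ring
    · have e1 : Sn ε (gA p) (.node d l r) i x =
          (Sn ε (gA p) l i (x + d) + Sn ε (gA p) r i (x - d)) / 2 := by
        cases i <;> simp only [Sn, if_neg hj]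
      have e3 : Cn p ε (.node d l r) i x = (Cn p ε l i (x + d) + Cn p ε r i (x - d)) / 2 := by
        cases i <;> simp only [Cn, if_neg hj]
      have e2 : ∀ v, Ps p ε (.node d l r) n x v =
          (Ps p ε l n (x + d) v + Ps p ε r n (x - d) v) / 2 := by
        intro v
        cases n <;> simp only [Ps, if_neg hj]
      rw [e1, e2, e3, ihl, ihr]
      split_ifs <;> ring

end Crest.Agent.R140
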